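import Vale.Agent.P139.A.Defs

/-! # P139: whole-line solutions; open, dense and generic sets of `H^k(T^d)` and `C^∞(T^d)`

A function on the torus is given by its Fourier coefficients `a : (Fin d → ℤ) → ℂ`. -/

open Set Filter Topology

namespace Vale.Agent.P139.R3.H36

open Vale.Agent.P139.A

variable {d : ℕ}

/-- `u ∈ C(ℝ; H^k(T^d))` solves `i ∂_t u + Δ u = |u|^{p-1} u` on `ℝ`, read on every Fourier
coefficient. -/
structure IsGlobalSolution (d p k : ℕ) (u : ℝ → (Fin d → ℤ) → ℂ) : Prop where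
  mem : ∀ t, MemSobolev k (u t)
  cont : ∀ t, Tendsto (fun s => sobolevSq k (fun n => u s n - u t n)) (𝓝 t) (𝓝 0)
  eqn : ∀ t n, ∃ v : ℂ, HasDerivAt (fun s => u s n) v t ∧
    Complex.I * v - sqNorm n * u t n =
      fourierCoef (fun x => (‖series (u t) x‖ : ℂ) ^ (p - 1) * series (u t) x) n

/-- `G` is an open subset of `H^k(T^d)`. -/
def IsOpenH (k : ℕ) (G : Set ((Fin d → ℤ) → ℂ)) : Prop :=
  ∀ a ∈ G, MemSobolev k a ∧ ∃ ε : ℝ, 0 < ε ∧ ∀ b, MemSobolev k b →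
    sobolevSq k (fun n => b n - a n) < ε → b ∈ G

/-- `G` is dense in `H^k(T^d)`. -/
def IsDenseH (k : ℕ) (G : Set ((Fin d → ℤ) → ℂ)) : Prop :=
  ∀ a, MemSobolev k a → ∀ ε : ℝ, 0 < ε → ∃ b ∈ G, MemSobolev k b ∧
    sobolevSq k (fun n => b n - a n) < ε

/-- `Q` holds for generic elements of `H^k(T^d)`: on a countable intersection of dense open
subsets. -/
def Generic (k : ℕ) (Q : ((Fin d → ℤ) → ℂ) → Prop) : Prop :=
  ∃ G : ℕ → Set ((Fin d → ℤ) → ℂ), (∀ j, IsOpenH k (G j) ∧ IsDenseH k (G j)) ∧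
    ∀ a, (∀ j, a ∈ G j) → Q a

/-- `a` is the sequence of Fourier coefficients of a smooth function. -/
def Smooth (a : (Fin d → ℤ) → ℂ) : Prop := ∀ l : ℕ, MemSobolev l a

/-- `G` is an open subset of `C^∞(T^d)`. -/
def IsOpenS (G : Set ((Fin d → ℤ) → ℂ)) : Prop :=
  ∀ a ∈ G, Smooth a ∧ ∃ (l : ℕ) (ε : ℝ), 0 < ε ∧ ∀ b, Smooth b →
    sobolevSq l (fun n => b n - a n) < ε → b ∈ G

/-- `G` is dense in `C^∞(T^d)`. -/
def IsDenseS (G : Set ((Fin d → ℤ) → ℂ)) : Prop :=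
  ∀ a, Smooth a → ∀ (l : ℕ) (ε : ℝ), 0 < ε → ∃ b ∈ G, Smooth b ∧
    sobolevSq l (fun n => b n - a n) < ε

/-- `Q` holds for generic elements of `C^∞(T^d)`: on a countable intersection of dense open
subsets. -/
def GenericS (Q : ((Fin d → ℤ) → ℂ) → Prop) : Prop :=
  ∃ G : ℕ → Set ((Fin d → ℤ) → ℂ), (∀ j, IsOpenS (G j) ∧ IsDenseS (G j)) ∧
    ∀ a, (∀ j, a ∈ G j) → Q a

end Vale.Agent.P139.R3.H36
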