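import Vale.Agent.P139.R3.H36.Sob

/-! # P139: the flow in `H^k(T^d)`, `2k > d` -/

open Set Metric Filter Topology MeasureTheory
open scoped NNReal ENNReal ComplexConjugate

namespace Vale.Agent.P139.R3.H36

open Vale.Agent.P139.A Vale.Agent.P139.H203

variable {d k : ℕ}

namespace HS

/-! ### The free group -/

lemma U_mem (t : ℝ) (a : HS d k) :
    MemSobolev k fun n => Complex.exp (-(Complex.I * sqNorm n * t)) * co a n := by
  refine (summable_sq a).congr fun n => ?_
  rw [norm_mul, norm_phase, one_mul]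

/-- The free Schrödinger group. -/
noncomputable def U (t : ℝ) (a : HS d k) : HS d k := mk _ (U_mem t a)

@[simp] lemma co_U (t : ℝ) (a : HS d k) (n : Lat d) :
    co (U t a) n = Complex.exp (-(Complex.I * sqNorm n * t)) * co a n := co_mk _ _ n

lemma norm_U (t : ℝ) (a : HS d k) : ‖U t a‖ = ‖a‖ := by
  have h : ‖U t a‖ ^ 2 = ‖a‖ ^ 2 := by
    rw [norm_sq_eq, norm_sq_eq]
    unfold sobolevSq
    refine tsum_congr fun n => ?_
    rw [co_U, norm_mul, norm_phase, one_mul]
  exact (sq_eq_sq₀ (norm_nonneg _) (norm_nonneg _)).1 h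

lemma U_sub (t : ℝ) (a b : HS d k) : U t (a - b) = U t a - U t b := by
  ext n
  simp [mul_sub]

lemma U_U_neg (t : ℝ) (a : HS d k) : U t (U (-t) a) = a := by
  ext n
  rw [co_U, co_U, ← mul_assoc, ← Complex.exp_add]
  have : -(Complex.I * sqNorm n * t) + -(Complex.I * sqNorm n * ((-t : ℝ) : ℂ)) = 0 := by
    push_cast; ring
  rw [this, Complex.exp_zero, one_mul]

lemma U_neg_U (t : ℝ) (a : HS d k) : U (-t) (U t a) = a := by
  have := U_U_neg (-t) a
  rwa [neg_neg] at this

lemma U_zero_time (a : HS d k) : U 0 a = a := by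
  ext n
  simp

lemma tendsto_of_sq {ι : Type*} {l : Filter ι} {f : ι → HS d k} {a : HS d k}
    (h : Tendsto (fun i => sobolevSq k (fun n => co (f i) n - co a n)) l (𝓝 0)) :
    Tendsto f l (𝓝 a) := by
  rw [tendsto_iff_norm_sub_tendsto_zero]
  have h1 := (Real.continuous_sqrt.tendsto 0).comp h
  rw [Real.sqrt_zero] at h1
  refine h1.congr fun i => ?_
  rw [Function.comp_apply, ← norm_sub_sq, Real.sqrt_sq (norm_nonneg _)]

lemma continuous_U_time (a : HS d k) : Continuous fun t => U t a := by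
  refine continuous_iff_continuousAt.2 fun t0 => tendsto_of_sq ?_
  have h : Tendsto (fun t => ∑' n, (1 + sqNorm n) ^ k * ‖co (U t a) n - co (U t0 a) n‖ ^ 2)
      (𝓝 t0) (𝓝 (∑' _ : Lat d, (0 : ℝ))) := by
    refine tendsto_tsum_of_dominated_convergence
      (bound := fun n => 4 * ((1 + sqNorm n) ^ k * ‖co a n‖ ^ 2)) ((summable_sq a).mul_left 4)
      (fun n => ?_) (Eventually.of_forall fun t n => ?_)
    · have h1 : Continuous fun t : ℝ =>
          (1 + sqNorm n) ^ k * ‖co (U t a) n - co (U t0 a) n‖ ^ 2 := by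
        simp only [co_U]
        fun_prop
      have h2 := h1.tendsto t0
      simpa using h2
    · have h3 : ‖co (U t a) n - co (U t0 a) n‖ ≤ 2 * ‖co a n‖ := by
        refine (norm_sub_le _ _).trans ?_
        rw [co_U, co_U, norm_mul, norm_mul, norm_phase, norm_phase]
        linarith
      have h4 := weight_pos k n
      rw [Real.norm_of_nonneg (mul_nonneg h4.le (sq_nonneg _))]
      calc (1 + sqNorm n) ^ k * ‖co (U t a) n - co (U t0 a) n‖ ^ 2
          ≤ (1 + sqNorm n) ^ k * (2 * ‖co a n‖) ^ 2 := by gcongr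
        _ = _ := by ring
  rwa [tsum_zero] at h

lemma continuous_U : Continuous fun p : ℝ × HS d k => U p.1 p.2 := by
  refine continuous_iff_continuousAt.2 fun q => ?_
  rw [ContinuousAt, tendsto_iff_norm_sub_tendsto_zero]
  have h1 : Tendsto (fun p : ℝ × HS d k => ‖p.2 - q.2‖ + ‖U p.1 q.2 - U q.1 q.2‖) (𝓝 q)
      (𝓝 (‖q.2 - q.2‖ + ‖U q.1 q.2 - U q.1 q.2‖)) := by
    have h2 : Continuous fun p : ℝ × HS d k => ‖p.2 - q.2‖ + ‖U p.1 q.2 - U q.1 q.2‖ := by
      have := (continuous_U_time q.2).comp (continuous_fst (X := ℝ) (Y := HS d k))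
      exact (continuous_snd.sub continuous_const).norm.add (this.sub continuous_const).norm
    exact h2.tendsto q
  simp only [sub_self, norm_zero, add_zero] at h1
  refine squeeze_zero (fun p => norm_nonneg _) (fun p => ?_) h1
  have h3 : U p.1 p.2 - U q.1 q.2 = U p.1 (p.2 - q.2) + (U p.1 q.2 - U q.1 q.2) := by
    rw [U_sub]; abel
  rw [h3]
  refine (norm_add_le _ _).trans ?_
  rw [norm_U]

/-! ### The field -/

/-- The vector field in the interaction picture. -/
noncomputable def fld (m : ℕ) (t : ℝ) (x : HS d k) : HS d k :=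
  (-Complex.I) • U (-t) (N m (U t x))

lemma continuous_fld (hk : d < 2 * k) (m : ℕ) :
    Continuous fun p : ℝ × HS d k => fld m p.1 p.2 := by
  have h1 : Continuous fun p : ℝ × HS d k => N m (U p.1 p.2) :=
    (continuous_N hk m).comp continuous_U
  have h2 : Continuous fun p : ℝ × HS d k => U (-p.1) (N m (U p.1 p.2)) :=
    continuous_U.comp (f := fun p : ℝ × HS d k => (-p.1, N m (U p.1 p.2)))
      ((continuous_fst.neg).prodMk h1)
  unfold fld
  exact h2.const_smul (-Complex.I)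

lemma norm_negI_smul (x : HS d k) : ‖(-Complex.I) • x‖ = ‖x‖ := by
  rw [norm_smul, norm_neg, Complex.norm_I, one_mul]

lemma norm_fld (m : ℕ) (t : ℝ) (x : HS d k) : ‖fld m t x‖ = ‖N m (U t x)‖ := by
  unfold fld
  rw [norm_negI_smul, norm_U]

lemma fld_lip (hk : d < 2 * k) (m : ℕ) {r : ℝ} (hr : 0 ≤ r) :
    ∃ K : ℝ≥0, ∀ t, LipschitzOnWith K (fld m t : HS d k → HS d k) (closedBall 0 r) := by
  obtain ⟨K, hK⟩ := N_lipschitz (d := d) hk m hr
  refine ⟨K, fun t => LipschitzOnWith.of_dist_le_mul fun x hx y hy => ?_⟩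
  have hb : ∀ {x : HS d k}, x ∈ closedBall (0 : HS d k) r → U t x ∈ closedBall (0 : HS d k) r := by
    intro x hx
    rw [mem_closedBall, dist_zero_right] at hx ⊢
    rwa [norm_U]
  have h := hK.dist_le_mul (U t x) (hb hx) (U t y) (hb hy)
  rw [dist_eq_norm, dist_eq_norm, ← U_sub, norm_U] at h
  rw [dist_eq_norm, dist_eq_norm]
  have e : fld m t x - fld m t y = (-Complex.I) • U (-t) (N m (U t x) - N m (U t y)) := by
    unfold fld
    rw [U_sub, smul_sub]
  rw [e, norm_negI_smul, norm_U]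
  exact h

lemma fld_bound (hk : d < 2 * k) (m : ℕ) {r : ℝ} (hr : 0 ≤ r) :
    ∃ M : ℝ≥0, ∀ t, ∀ x ∈ closedBall (0 : HS d k) r, ‖fld m t x‖ ≤ M := by
  obtain ⟨C, hC, h⟩ := N_norm_le (d := d) hk m
  refine ⟨⟨C * r ^ (2 * m + 1), by positivity⟩, fun t x hx => ?_⟩
  rw [mem_closedBall, dist_zero_right] at hx
  rw [norm_fld]
  refine (h _).trans ?_
  rw [norm_U]
  show C * ‖x‖ ^ (2 * m + 1) ≤ C * r ^ (2 * m + 1)
  gcongr

/-- Solutions of the equation in the interaction picture. -/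
def Sol (m : ℕ) (T : ℝ) (y : ℝ → HS d k) : Prop :=
  ∀ t ∈ Icc 0 T, HasDerivWithinAt y (fld m t (y t)) (Icc 0 T) t

lemma Sol.cont {m : ℕ} {T : ℝ} {y : ℝ → HS d k} (hy : Sol m T y) : ContinuousOn y (Icc 0 T) :=
  HasDerivWithinAt.continuousOn hy

/-- Strong differentiability from the coefficientwise derivatives. -/
theorem hasDeriv_of_co {T : ℝ} (hT : 0 ≤ T) {y f : ℝ → HS d k} (hf : ContinuousOn f (Icc 0 T))
    (h : ∀ t ∈ Icc 0 T, ∀ n, HasDerivWithinAt (fun s => co (y s) n) (co (f t) n)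
      (Icc 0 T) t) : ∀ t ∈ Icc 0 T, HasDerivWithinAt y (f t) (Icc 0 T) t := by
  let f' : ℝ → HS d k := IccExtend hT ((Icc 0 T).domRestrict f)
  have hf' : Continuous f' := hf.domRestrict.Icc_extend'
  have hft : ∀ t ∈ Icc 0 T, f' t = f t := fun t ht => by
    simp only [f', IccExtend_of_mem hT _ ht, domRestrict_apply]
  have hcf : ∀ n, Continuous fun s => co (f' s) n := fun n =>
    (coR (d := d) (k := k) n).continuous.comp hf'
  have hY : ∀ t ∈ Icc 0 T, y t = y 0 + ∫ s in (0 : ℝ)..t, f' s := by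
    intro t ht
    ext n
    rw [co_add]
    have h1 : co (∫ s in (0 : ℝ)..t, f' s) n = ∫ s in (0 : ℝ)..t, co (f' s) n :=
      ((coR (d := d) (k := k) n).intervalIntegral_comp_comm
        (hf'.intervalIntegrable (μ := volume) 0 t)).symm
    have hsub : Icc 0 t ⊆ Icc 0 T := Icc_subset_Icc_right ht.2
    have h2 : ∫ s in (0 : ℝ)..t, co (f' s) n = co (y t) n - co (y 0) n := by
      refine intervalIntegral.integral_eq_sub_of_hasDerivAt_of_le ht.1
        (fun s hs => ((h s (hsub hs) n).mono hsub).continuousWithinAt) (fun s hs => ?_)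
        ((hcf n).intervalIntegrable _ _)
      rw [hft s (hsub (Ioo_subset_Icc_self hs))]
      exact (h s (hsub (Ioo_subset_Icc_self hs)) n).hasDerivAt
        (Icc_mem_nhds hs.1 (hs.2.trans_le ht.2))
    rw [h1, h2]
    ring
  intro t ht
  have h5 : HasDerivAt (fun t => ∫ s in (0 : ℝ)..t, f' s) (f' t) t :=
    intervalIntegral.integral_hasDerivAt_right (hf'.intervalIntegrable _ _)
      (hf'.stronglyMeasurableAtFilter _ _) hf'.continuousAt
  have h6 : HasDerivWithinAt (fun t => y 0 + ∫ s in (0 : ℝ)..t, f' s) (f' t) (Icc 0 T) t :=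
    (h5.hasDerivWithinAt).const_add _
  have h7 := h6.congr (fun s hs => hY s hs) (hY t ht)
  rwa [hft t ht] at h7

lemma hasDeriv_phase (n : Lat d) (c t : ℝ) (s : Set ℝ) :
    HasDerivWithinAt (fun τ : ℝ => Complex.exp (-(Complex.I * sqNorm n * ((c * τ : ℝ) : ℂ))))
      (Complex.exp (-(Complex.I * sqNorm n * ((c * t : ℝ) : ℂ))) * (-(Complex.I * sqNorm n * c)))
      s t := by
  have h3 : HasDerivAt (fun τ : ℝ => (-(Complex.I * sqNorm n * ((c * τ : ℝ) : ℂ)) : ℂ))
      (-(Complex.I * sqNorm n * c)) t := by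
    have h4 : HasDerivAt (fun τ : ℝ => (τ : ℂ)) 1 t := Complex.ofRealCLM.hasDerivAt
    have h5 := h4.const_mul (-(Complex.I * sqNorm n * c))
    rw [mul_one] at h5
    refine h5.congr_of_eventuallyEq (Eventually.of_forall fun τ => ?_)
    push_cast
    ring
  exact h3.cexp.hasDerivWithinAt

/-! ### Solutions of the equation and solutions of the differential equation in `H^k` -/

theorem sol_of (hk : d < 2 * k) {m : ℕ} {T : ℝ} (hT : 0 ≤ T) {u : ℝ → Lat d → ℂ}
    (hu : IsSolution d (2 * m + 1) k T u) : Sol m T (fun t => U (-t) (toH k (u t))) := by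
  have hco : ∀ t ∈ Icc 0 T, co (toH k (u t)) = u t := fun t ht => funext (co_toH (hu.mem t ht))
  have hcont : ContinuousOn (fun t => toH k (u t)) (Icc 0 T) := by
    intro t ht
    refine tendsto_of_sq ((hu.cont t ht).congr' ?_)
    filter_upwards [self_mem_nhdsWithin] with s hs
    rw [hco s hs, hco t ht]
  have hy : ContinuousOn (fun t => U (-t) (toH k (u t))) (Icc 0 T) :=
    continuous_U.comp_continuousOn (f := fun t : ℝ => (-t, toH k (u t)))
      (continuous_neg.continuousOn.prodMk hcont)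
  have hf : ContinuousOn (fun t => fld m t (U (-t) (toH k (u t)))) (Icc 0 T) :=
    (continuous_fld hk m).comp_continuousOn (f := fun t : ℝ => (t, U (-t) (toH k (u t))))
      (continuousOn_id.prodMk hy)
  refine hasDeriv_of_co hT hf fun t ht n => ?_
  have h1 := (curve_of hk hu).eqn t ht n
  have h1' : HasDerivWithinAt (fun s => u s n)
      (-Complex.I * (sqNorm n * u t n) - Complex.I * WA.coef (WA.F m (toWA (u t))) n)
      (Icc 0 T) t := by
    rw [coef_curve hk hu ht] at h1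
    exact h1.congr (fun s hs => (coef_curve hk hu hs n).symm) (coef_curve hk hu ht n).symm
  have h2 := hasDeriv_phase n (-1) t (Icc 0 T)
  have h5 := h2.fun_mul h1'
  have h6 : ∀ s ∈ Icc 0 T, co (U (-s) (toH k (u s))) n
      = Complex.exp (-(Complex.I * sqNorm n * ((-1 * s : ℝ) : ℂ))) * u s n := by
    intro s hs
    rw [co_U, hco s hs, neg_one_mul]
  refine (h5.congr h6 (h6 t ht)).congr_deriv ?_
  unfold fld
  rw [U_U_neg, co_smul, co_U, co_N hk]
  have h7 : toW (toH k (u t)) = toWA (u t) := by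
    unfold toW
    rw [hco t ht]
  rw [h7, neg_one_mul]
  push_cast
  ring

theorem isSolution_of (hk : d < 2 * k) {m : ℕ} {T : ℝ} {y : ℝ → HS d k} (hy : Sol m T y) :
    IsSolution d (2 * m + 1) k T (fun t => co (U t (y t))) where
  mem t _ := memS _
  cont t ht := by
    have h1 : ContinuousOn (fun t => U t (y t)) (Icc 0 T) :=
      continuous_U.comp_continuousOn (f := fun t : ℝ => (t, y t))
        (continuousOn_id.prodMk hy.cont)
    have h2 := h1 t ht
    rw [ContinuousWithinAt, tendsto_iff_norm_sub_tendsto_zero] at h2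
    have h3 := h2.pow 2
    rw [zero_pow two_ne_zero] at h3
    refine h3.congr fun s => ?_
    rw [norm_sub_sq]
  eqn t ht n := by
    have h1 := hasDeriv_phase n 1 t (Icc 0 T)
    have h2 : HasDerivWithinAt (fun s => co (y s) n) (co (fld m t (y t)) n) (Icc 0 T) t :=
      (coR n).hasFDerivAt.comp_hasDerivWithinAt t (hy t ht)
    have h3 := h1.fun_mul h2
    refine ⟨_, h3.congr (fun s _ => by rw [co_U, one_mul]) (by rw [co_U, one_mul]), ?_⟩
    have h4 : (fun x => (‖series (co (U t (y t))) x‖ : ℂ) ^ (2 * m + 1 - 1) *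
        series (co (U t (y t))) x) = series (WA.coef (WA.F m (toW (U t (y t))))) := by
      funext x
      have h5 := WA.ev_F m (toW (U t (y t))) x
      have h6 : WA.ev (toW (U t (y t))) x = series (co (U t (y t))) x := by
        unfold WA.ev
        congr 1
        funext n
        exact coef_toW hk _ n
      rw [h6] at h5
      rw [Nat.add_sub_cancel]
      exact h5.symm
    rw [h4, fourierCoef_series (WA.F m (toW (U t (y t)))).summable_norm, ← co_N hk]
    unfold fld
    rw [co_smul, co_U, co_U]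
    have h7 : Complex.exp (-(Complex.I * sqNorm n * ((1 * t : ℝ) : ℂ))) *
        Complex.exp (-(Complex.I * sqNorm n * ((-t : ℝ) : ℂ))) = 1 := by
      rw [← Complex.exp_add]
      have : -(Complex.I * sqNorm n * ((1 * t : ℝ) : ℂ)) +
          -(Complex.I * sqNorm n * ((-t : ℝ) : ℂ)) = 0 := by
        push_cast; ring
      rw [this, Complex.exp_zero]
    rw [one_mul] at h7 ⊢
    have hI := Complex.I_sq
    set e1 := Complex.exp (-(Complex.I * sqNorm n * (t : ℂ)))
    set e2 := Complex.exp (-(Complex.I * sqNorm n * ((-t : ℝ) : ℂ)))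
    set z := co (N m (U t (y t))) n
    push_cast
    linear_combination (-(e1 * sqNorm n * co (y t) n) - e1 * e2 * z) * hI + z * h7

theorem sol_unique (hk : d < 2 * k) {m : ℕ} {T : ℝ} {y z : ℝ → HS d k} (hy : Sol m T y)
    (hz : Sol m T z) (h0 : y 0 = z 0) : ∀ t ∈ Icc 0 T, y t = z t := by
  intro t ht
  have h := H203.unique hk (isSolution_of hk hy) (isSolution_of hk hz) (by simp only [h0]) t ht
  have h1 : U t (y t) = U t (z t) := by
    ext n
    exact congrFun h n
  rw [← U_neg_U t (y t), h1, U_neg_U]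

/-- Continuous dependence. -/
theorem stability (hk : d < 2 * k) {m : ℕ} {T : ℝ} (hT : 0 ≤ T) {y : ℝ → HS d k}
    (hy : Sol m T y) : ∃ L : ℝ, 0 < L ∧ ∃ δ > 0, ∀ b : HS d k, ‖b - y 0‖ ≤ δ →
      ∃ z : ℝ → HS d k, Sol m T z ∧ z 0 = b ∧ ∀ t ∈ Icc 0 T, ‖z t - y t‖ ≤ L * ‖b - y 0‖ := by
  obtain ⟨R, hR⟩ := isCompact_Icc.exists_bound_of_continuousOn hy.cont
  set ρ : ℝ := max R 0 + 1 with hρd
  have hρ : 0 < ρ := by
    have := le_max_right R 0
    linarith
  have hyρ : ∀ t ∈ Icc 0 T, ‖y t‖ + 1 ≤ ρ := fun t ht => by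
    have := (hR t ht).trans (le_max_left R 0)
    linarith
  obtain ⟨K, hK⟩ := fld_lip (d := d) hk m (r := 2 * ρ) (by positivity)
  obtain ⟨M, hM⟩ := fld_bound (d := d) hk m (r := 2 * ρ) (by positivity)
  set K' : ℝ≥0 := K + M / ⟨ρ, hρ.le⟩ with hK'
  set L : ℝ := Real.exp (K' * T) with hL
  have hL0 : 0 < L := Real.exp_pos _
  refine ⟨L, hL0, 1 / L, by positivity, fun b hb => ?_⟩
  obtain ⟨v, hv0, hv⟩ := exists_cutoff (fld m : ℝ → HS d k → HS d k) hρ K M hT
    (fun t _ => hK t) (fun t _ => hM t)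
    (fun x => ((continuous_fld hk m).comp
      (continuous_id.prodMk continuous_const)).continuousOn) b
  have hcut : ∀ (t : ℝ) (x : HS d k), ‖x‖ ≤ ρ → cutField (fld m) ρ t x = fld m t x := by
    intro t x hx
    unfold cutField
    rw [cut_eq_one ((div_le_one hρ).2 hx), one_smul]
  have hnh : ∀ s ∈ Ico (0 : ℝ) T, Icc 0 T ∈ 𝓝[Ici s] s := fun s hs =>
    mem_of_superset (Icc_mem_nhdsGE hs.2) (Icc_subset_Icc_left hs.1)
  have hg := dist_le_of_trajectories_ODE_of_mem
    (v := fun t => cutField (fld m : ℝ → HS d k → HS d k) ρ t) (K := K')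
    (s := fun _ => univ) (a := 0) (b := T) (f := v) (g := y) (δ := dist b (y 0))
    (fun t _ => LipschitzOnWith.of_dist_le_mul fun x _ z _ => by
      rw [dist_eq_norm, dist_eq_norm]
      exact cutField_dist_le hρ (hK t) (hM t) x z)
    (HasDerivWithinAt.continuousOn hv)
    (fun t ht => (hv t (Ico_subset_Icc_self ht)).mono_of_mem_nhdsWithin (hnh t ht))
    (fun _ _ => mem_univ _) hy.cont
    (fun t ht => by
      have h1 := (hy t (Ico_subset_Icc_self ht)).mono_of_mem_nhdsWithin (hnh t ht)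
      have h2 := hyρ t (Ico_subset_Icc_self ht)
      rw [← hcut t (y t) (by linarith)] at h1
      exact h1)
    (fun _ _ => mem_univ _) (by rw [hv0])
  have hclose : ∀ t ∈ Icc 0 T, ‖v t - y t‖ ≤ L * ‖b - y 0‖ := by
    intro t ht
    have h1 := hg t ht
    rw [dist_eq_norm, dist_eq_norm, sub_zero] at h1
    refine h1.trans ?_
    rw [mul_comm]
    refine mul_le_mul_of_nonneg_right ?_ (norm_nonneg _)
    exact Real.exp_le_exp.2 (mul_le_mul_of_nonneg_left ht.2 K'.2)
  refine ⟨v, fun t ht => ?_, hv0, hclose⟩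
  have h1 : ‖v t‖ ≤ ρ := by
    have h2 := hclose t ht
    have h3 : L * ‖b - y 0‖ ≤ 1 := by
      calc L * ‖b - y 0‖ ≤ L * (1 / L) := by gcongr
        _ = 1 := by field_simp
    have h4 := hyρ t ht
    have h5 : v t = (v t - y t) + y t := by abel
    rw [h5]
    exact (norm_add_le _ _).trans (by linarith)
  rw [← hcut t (v t) h1]
  exact hv t ht

/-- The data with a solution on `[0,T]`. -/
def D (m : ℕ) (T : ℝ) : Set (HS d k) := {a | ∃ y : ℝ → HS d k, Sol m T y ∧ y 0 = a}

theorem mem_D_iff (hk : d < 2 * k) {m : ℕ} {T : ℝ} (hT : 0 ≤ T) (a : HS d k) :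
    a ∈ D m T ↔ ∃ u, IsSolution d (2 * m + 1) k T u ∧ u 0 = co a := by
  constructor
  · rintro ⟨y, hy, rfl⟩
    exact ⟨_, isSolution_of hk hy, by simp only [U_zero_time]⟩
  · rintro ⟨u, hu, h0⟩
    refine ⟨_, sol_of hk hT hu, ?_⟩
    show U (-0) (toH k (u 0)) = a
    rw [neg_zero, U_zero_time, h0, toH_co]

theorem isOpen_D (hk : d < 2 * k) {m : ℕ} {T : ℝ} (hT : 0 ≤ T) :
    IsOpen (D m T : Set (HS d k)) := by
  rw [Metric.isOpen_iff]
  rintro _ ⟨y, hy, rfl⟩
  obtain ⟨L, -, δ, hδ, h⟩ := stability hk hT hy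
  refine ⟨δ, hδ, fun b hb => ?_⟩
  rw [mem_ball, dist_eq_norm] at hb
  obtain ⟨z, hz, hz0, -⟩ := h b hb.le
  exact ⟨z, hz, hz0⟩

open Classical in
/-- The flow at time `T`. -/
noncomputable def Φ (m : ℕ) (T : ℝ) (a : HS d k) : HS d k :=
  if h : ∃ y : ℝ → HS d k, Sol m T y ∧ y 0 = a then U T (h.choose T) else a

theorem Φ_eq (hk : d < 2 * k) {m : ℕ} {T : ℝ} (hT : 0 ≤ T) {y : ℝ → HS d k} (hy : Sol m T y) :
    Φ m T (y 0) = U T (y T) := by
  have h : ∃ z : ℝ → HS d k, Sol m T z ∧ z 0 = y 0 := ⟨y, hy, rfl⟩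
  unfold Φ
  rw [dif_pos h]
  congr 1
  exact sol_unique hk h.choose_spec.1 hy h.choose_spec.2 T ⟨hT, le_rfl⟩

theorem Φ_eq_of (hk : d < 2 * k) {m : ℕ} {T : ℝ} (hT : 0 ≤ T) {u : ℝ → Lat d → ℂ}
    (hu : IsSolution d (2 * m + 1) k T u) {a : HS d k} (h0 : u 0 = co a) :
    co (Φ m T a) = u T := by
  have h := Φ_eq hk hT (sol_of hk hT hu)
  have h1 : U (-0) (toH k (u 0)) = a := by rw [neg_zero, U_zero_time, h0, toH_co]
  simp only [h1, U_U_neg] at h
  rw [h]
  exact funext (co_toH (hu.mem T ⟨hT, le_rfl⟩))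

theorem continuousOn_Φ (hk : d < 2 * k) {m : ℕ} {T : ℝ} (hT : 0 ≤ T) :
    ContinuousOn (Φ m T : HS d k → HS d k) (D m T) := by
  rintro _ ⟨y, hy, rfl⟩
  obtain ⟨L, hL, δ, hδ, h⟩ := stability hk hT hy
  apply ContinuousAt.continuousWithinAt
  rw [ContinuousAt, tendsto_iff_norm_sub_tendsto_zero]
  have h1 : Tendsto (fun b : HS d k => L * ‖b - y 0‖) (𝓝 (y 0)) (𝓝 (L * ‖y 0 - y 0‖)) := by
    have : Continuous fun b : HS d k => L * ‖b - y 0‖ := by fun_prop
    exact this.tendsto _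
  rw [sub_self, norm_zero, mul_zero] at h1
  refine squeeze_zero' (Eventually.of_forall fun b => norm_nonneg _) ?_ h1
  filter_upwards [ball_mem_nhds (y 0) hδ] with b hb
  rw [mem_ball, dist_eq_norm] at hb
  obtain ⟨z, hz, hz0, hc⟩ := h b hb.le
  have h2 := Φ_eq hk hT hz
  rw [hz0] at h2
  rw [h2, Φ_eq hk hT hy, ← U_sub, norm_U]
  exact hc T ⟨hT, le_rfl⟩

end HS

end Vale.Agent.P139.R3.H36
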