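import Vale.Agent.P139.R3.H36.Flow

/-! # P139: glueing of solutions in the interaction picture -/

open Set Metric Filter Topology MeasureTheory
open scoped NNReal ENNReal ComplexConjugate

namespace Vale.Agent.P139.R3.H36

open Vale.Agent.P139.A Vale.Agent.P139.H203

variable {d k : ℕ}

namespace HS

lemma U_U (s t : ℝ) (a : HS d k) : U s (U t a) = U (s + t) a := by
  ext n
  rw [co_U, co_U, co_U, ← mul_assoc, ← Complex.exp_add]
  congr 2
  push_cast
  ring

lemma U_smul (t : ℝ) (c : ℂ) (a : HS d k) : U t (c • a) = c • U t a := by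
  ext n
  rw [co_U, co_smul, co_smul, co_U]
  ring

lemma U_add (t : ℝ) (a b : HS d k) : U t (a + b) = U t a + U t b := by
  ext n
  simp [mul_add]

/-- The free group as bounded operators. -/
noncomputable def UL (t : ℝ) : HS d k →L[ℝ] HS d k :=
  (LinearMap.mkContinuous
    { toFun := fun a => U t a
      map_add' := U_add t
      map_smul' := U_smul t } 1
    (fun a => by rw [one_mul]; exact (norm_U t a).le) : HS d k →L[ℂ] HS d k).restrictScalars ℝ

lemma UL_apply (t : ℝ) (a : HS d k) : UL t a = U t a := rfl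

lemma fld_shift (m : ℕ) (S t : ℝ) (x : HS d k) :
    fld m (S + t) (U (-S) x) = U (-S) (fld m t x) := by
  unfold fld
  rw [U_smul, U_U, U_U]
  congr 2
  · ring
  · congr 1
    rw [show S + t + -S = t by ring]

/-- Glueing of solutions. -/
theorem glue {m : ℕ} {S T : ℝ} (hS : 0 ≤ S) (hT : 0 ≤ T)
    {y z : ℝ → HS d k} (hy : Sol m S y) (hz : Sol m T z) (h : z 0 = U S (y S)) :
    ∃ w : ℝ → HS d k, Sol m (S + T) w ∧ (∀ t ∈ Icc 0 S, w t = y t) ∧
      (∀ t ∈ Icc 0 T, U (S + t) (w (S + t)) = U t (z t)) := by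
  set w : ℝ → HS d k := fun t => if t ≤ S then y t else U (-S) (z (t - S)) with hw
  have h1 : ∀ t ∈ Icc 0 S, w t = y t := fun t ht => by
    rw [hw]
    simp only [ht.2, if_true]
  have h2 : ∀ t ∈ Icc S (S + T), w t = U (-S) (z (t - S)) := by
    intro t ht
    rcases eq_or_lt_of_le ht.1 with h3 | h3
    · rw [← h3, h1 S ⟨hS, le_rfl⟩, sub_self, h, U_neg_U]
    · rw [hw]
      simp only [not_le.2 h3, if_false]
  refine ⟨w, fun t ht => ?_, h1, fun t ht => ?_⟩
  · have hU : Icc 0 (S + T) = Icc 0 S ∪ Icc S (S + T) :=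
      (Icc_union_Icc_eq_Icc hS (by linarith)).symm
    rw [hU]
    refine HasDerivWithinAt.union ?_ ?_
    · by_cases hts : t ≤ S
      · have ht' : t ∈ Icc 0 S := ⟨ht.1, hts⟩
        rw [h1 t ht']
        exact (hy t ht').congr h1 (h1 t ht')
      · refine HasFDerivWithinAt.of_notMem_closure ?_
        rw [closure_Icc]
        exact fun h => hts h.2
    · by_cases hts : S ≤ t
      · have ht' : t ∈ Icc S (S + T) := ⟨hts, ht.2⟩
        have hmt : t - S ∈ Icc 0 T := ⟨by linarith, by linarith [ht.2]⟩
        rw [h2 t ht']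
        have h3 : HasDerivWithinAt (fun s => z (s - S)) (fld m (t - S) (z (t - S)))
            (Icc S (S + T)) t := by
          have hmaps : MapsTo (fun s : ℝ => s - S) (Icc S (S + T)) (Icc 0 T) := fun s hs =>
            ⟨by linarith [hs.1], by linarith [hs.2]⟩
          have h4 := HasDerivWithinAt.scomp t (h := fun s : ℝ => s - S) (hz (t - S) hmt)
            ((hasDerivWithinAt_id t (Icc S (S + T))).sub_const S) hmaps
          rw [one_smul] at h4
          exact h4
        have h5 := (UL (d := d) (k := k) (-S)).hasFDerivAt.comp_hasDerivWithinAt t h3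
        have h6 : fld m t (U (-S) (z (t - S))) = UL (-S) (fld m (t - S) (z (t - S))) := by
          rw [UL_apply, ← fld_shift, add_sub_cancel]
        rw [h6]
        exact h5.congr h2 (h2 t ht')
      · refine HasFDerivWithinAt.of_notMem_closure ?_
        rw [closure_Icc]
        exact fun h => hts h.1
  · rw [h2 (S + t) ⟨by linarith [ht.1], by linarith [ht.2]⟩, U_U]
    rw [show S + t + -S = t by ring, show S + t - S = t by ring]

end HS

end Vale.Agent.P139.R3.H36
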