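import Vale.Agent.P139.R3.H36.Defs
import Vale.Agent.P139.R3.H36.Flow
import Vale.Agent.P139.R3.H156.Reverse
import Vale.Agent.P139.R3.H597.Baire
import Vale.Agent.P139.R3.H36.Glue

/-! # P139: time reversal, Baire category and the generic dichotomy in `H^k` -/

open Set Metric Filter Topology MeasureTheory
open scoped NNReal ENNReal ComplexConjugate

namespace Vale.Agent.P139.R3.H36

open Vale.Agent.P139.A Vale.Agent.P139.H203

variable {d k : ℕ}

/-- Restriction to a shorter time interval. -/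
theorem IsSolution.restrict {p : ℕ} {S T : ℝ} (h : S ≤ T) {u : ℝ → Lat d → ℂ}
    (hu : IsSolution d p k T u) : IsSolution d p k S u where
  mem t ht := hu.mem t (Icc_subset_Icc_right h ht)
  cont t ht := (hu.cont t (Icc_subset_Icc_right h ht)).mono_left
    (nhdsWithin_mono t (Icc_subset_Icc_right h))
  eqn t ht n := by
    obtain ⟨v, hv, he⟩ := hu.eqn t (Icc_subset_Icc_right h ht) n
    exact ⟨v, hv.mono (Icc_subset_Icc_right h), he⟩

theorem IsSolution.congr {p : ℕ} {T : ℝ} {u v : ℝ → Lat d → ℂ}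
    (hu : IsSolution d p k T u) (h : ∀ t ∈ Icc 0 T, v t = u t) : IsSolution d p k T v where
  mem t ht := by rw [h t ht]; exact hu.mem t ht
  cont t ht := by
    refine (hu.cont t ht).congr' ?_
    filter_upwards [self_mem_nhdsWithin] with s hs
    rw [h s hs, h t ht]
  eqn t ht n := by
    obtain ⟨w, hw, he⟩ := hu.eqn t ht n
    refine ⟨w, hw.congr (fun s hs => by rw [h s hs]) (by rw [h t ht]), ?_⟩
    rw [h t ht]
    exact he

namespace HS

theorem D_mono {m : ℕ} {S T : ℝ} (h : S ≤ T) : (D m T : Set (HS d k)) ⊆ D m S := by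
  rintro a ⟨y, hy, h0⟩
  exact ⟨y, fun t ht => (hy t (Icc_subset_Icc_right h ht)).mono (Icc_subset_Icc_right h), h0⟩

/-- The flow up to time `T` followed by time reversal. -/
noncomputable def Ψ (m : ℕ) (T : ℝ) (a : HS d k) : HS d k := cj (Φ m T a)

theorem Ψ_sol (hk : d < 2 * k) {m : ℕ} {T : ℝ} (hT : 0 ≤ T) {a : HS d k} (ha : a ∈ D m T) :
    ∃ v, IsSolution d (2 * m + 1) k T v ∧ v 0 = co (Ψ m T a) ∧ v T = co (cj a) := by
  obtain ⟨u, hu, h0⟩ := (mem_D_iff hk hT a).1 ha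
  have hΦ := Φ_eq_of hk hT hu h0
  refine ⟨_, H156.reverse hT hu, ?_, ?_⟩
  · funext n
    show conj (u (T - 0) (-n)) = _
    rw [sub_zero, Ψ, co_cj, hΦ]
  · funext n
    show conj (u (T - T) (-n)) = _
    rw [sub_self, co_cj, h0]

theorem Ψ_mem (hk : d < 2 * k) {m : ℕ} {T : ℝ} (hT : 0 ≤ T) {a : HS d k} (ha : a ∈ D m T) :
    Ψ m T a ∈ D m T := by
  obtain ⟨v, hv, h0, -⟩ := Ψ_sol hk hT ha
  exact (mem_D_iff hk hT _).2 ⟨v, hv, h0⟩

theorem Ψ_Ψ (hk : d < 2 * k) {m : ℕ} {T : ℝ} (hT : 0 ≤ T) {a : HS d k} (ha : a ∈ D m T) :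
    Ψ m T (Ψ m T a) = a := by
  obtain ⟨v, hv, h0, h1⟩ := Ψ_sol hk hT ha
  have h2 := Φ_eq_of hk hT hv h0
  ext n
  rw [Ψ, co_cj, h2, h1, co_cj, neg_neg, Complex.conj_conj]

theorem glue_official (hk : d < 2 * k) {m : ℕ} {S T : ℝ} (hS : 0 ≤ S) (hT : 0 ≤ T)
    {u v : ℝ → Lat d → ℂ} (hu : IsSolution d (2 * m + 1) k S u)
    (hv : IsSolution d (2 * m + 1) k T v) (h : v 0 = u S) :
    ∃ w, IsSolution d (2 * m + 1) k (S + T) w ∧ (∀ t ∈ Icc 0 S, w t = u t) ∧
      ∀ t ∈ Icc 0 T, w (S + t) = v t := by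
  have hz0 : U (-0) (toH k (v 0)) = U S (U (-S) (toH k (u S))) := by
    rw [U_U_neg, neg_zero, U_zero_time, h]
  obtain ⟨w, hw, h1, h2⟩ := glue hS hT (sol_of hk hS hu) (sol_of hk hT hv) hz0
  refine ⟨_, isSolution_of hk hw, fun t ht => ?_, fun t ht => ?_⟩
  · show co (U t (w t)) = u t
    rw [h1 t ht, U_U_neg]
    exact funext (co_toH (hu.mem t ht))
  · show co (U (S + t) (w (S + t))) = v t
    rw [h2 t ht, U_U_neg]
    exact funext (co_toH (hv.mem t ht))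

theorem D_add (hk : d < 2 * k) {m : ℕ} {S T : ℝ} (hS : 0 ≤ S) (hT : 0 ≤ T) {a : HS d k}
    (ha : a ∈ D m S) (hb : cj (Ψ m S a) ∈ D m T) : a ∈ D m (S + T) := by
  rw [Ψ, cj_cj] at hb
  obtain ⟨u, hu, h0⟩ := (mem_D_iff hk hS a).1 ha
  obtain ⟨v, hv, h1⟩ := (mem_D_iff hk hT _).1 hb
  obtain ⟨w, hw, hwu, -⟩ := glue_official hk hS hT hu hv (by rw [h1, Φ_eq_of hk hS hu h0])
  refine (mem_D_iff hk (add_nonneg hS hT) a).2 ⟨w, hw, ?_⟩
  rw [hwu 0 ⟨le_rfl, hS⟩, h0]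

theorem dichotomy (hk : d < 2 * k) (m : ℕ) :
    (∀ δ, 0 < δ → ¬ Dense (D m δ : Set (HS d k))) ∨
      ((∀ T, 0 ≤ T → Dense (D m T : Set (HS d k))) ∧
        {x : HS d k | ∀ T, 0 ≤ T → x ∈ D m T ∧ cj x ∈ D m T} ∈ residual (HS d k)) :=
  H597.generic (fun T => (D m T : Set (HS d k))) (fun _ hT => isOpen_D hk hT)
    (fun _ _ _ h => D_mono h) cj continuous_cj cj_cj (Ψ m) (fun _ hT _ hx => Ψ_mem hk hT hx)
    (fun _ hT _ hx => Ψ_Ψ hk hT hx)
    (fun _ hT => continuous_cj.comp_continuousOn (continuousOn_Φ hk hT))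
    (fun _ _ hS hT _ hx hy => D_add hk hS hT hx hy)

end HS

theorem exists_forward (hk : d < 2 * k) {m : ℕ} {a : Lat d → ℂ}
    (h : ∀ T, 0 ≤ T → ∃ u, IsSolution d (2 * m + 1) k T u ∧ u 0 = a) :
    ∃ u, (∀ T, 0 ≤ T → IsSolution d (2 * m + 1) k T u) ∧ u 0 = a := by
  choose! u hu h0 using h
  have key : ∀ T, 0 ≤ T → ∀ t ∈ Icc 0 T, u (t + 1) t = u T t := by
    intro T hT t ht
    rcases le_total (t + 1) T with h1 | h1
    · exact H203.unique hk (hu (t + 1) (by linarith [ht.1])) (IsSolution.restrict h1 (hu T hT))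
        (by rw [h0 _ (by linarith [ht.1]), h0 _ hT]) t ⟨ht.1, by linarith⟩
    · exact H203.unique hk (IsSolution.restrict h1 (hu (t + 1) (by linarith [ht.1]))) (hu T hT)
        (by rw [h0 _ (by linarith [ht.1]), h0 _ hT]) t ht
  refine ⟨fun t => u (t + 1) t, fun T hT => IsSolution.congr (hu T hT) (key T hT), ?_⟩
  show u (0 + 1) 0 = a
  exact h0 _ (by norm_num)

/-- The whole-line solution from two half-line solutions. -/
theorem global_of (hk : d < 2 * k) {m : ℕ} {u v : ℝ → Lat d → ℂ}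
    (hu : ∀ T, 0 ≤ T → IsSolution d (2 * m + 1) k T u)
    (hv : ∀ T, 0 ≤ T → IsSolution d (2 * m + 1) k T v) (h1 : v 0 = fun n => conj (u 0 (-n))) :
    IsGlobalSolution d (2 * m + 1) k
      (fun t => if 0 ≤ t then u t else fun n => conj (v (-t) (-n))) := by
  set w : ℝ → Lat d → ℂ := fun t => if 0 ≤ t then u t else fun n => conj (v (-t) (-n)) with hw
  have key : ∀ T, 0 ≤ T → ∃ W, IsSolution d (2 * m + 1) k (T + T) W ∧
      ∀ s ∈ Icc (-T) T, w s = W (T + s) := by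
    intro T hT
    obtain ⟨W, hW, hW1, hW2⟩ := HS.glue_official hk hT hT (H156.reverse hT (hv T hT)) (hu T hT)
      (by
        funext n
        show u 0 n = conj (v (T - T) (-n))
        rw [sub_self, h1]
        simp)
    refine ⟨W, hW, fun s hs => ?_⟩
    by_cases hs0 : 0 ≤ s
    · rw [hW2 s ⟨hs0, hs.2⟩, hw]
      simp only [hs0, if_true]
    · rw [hW1 (T + s) ⟨by linarith [hs.1], by linarith [not_le.1 hs0]⟩, hw]
      simp only [hs0, if_false]
      funext n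
      congr 3
      ring
  refine ⟨fun t => ?_, fun t => ?_, fun t n => ?_⟩
  · obtain ⟨W, hW, hs⟩ := key |t| (abs_nonneg t)
    rw [hs t ⟨neg_abs_le t, le_abs_self t⟩]
    exact hW.mem _ ⟨by linarith [neg_abs_le t], by linarith [le_abs_self t]⟩
  · obtain ⟨W, hW, hs⟩ := key (|t| + 1) (by positivity)
    have ht : t ∈ Ioo (-(|t| + 1)) (|t| + 1) :=
      ⟨by linarith [neg_abs_le t], by linarith [le_abs_self t]⟩
    have hc := hW.cont (|t| + 1 + t) ⟨by linarith [ht.1], by linarith [ht.2]⟩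
    have h2 : Tendsto (fun s => |t| + 1 + s) (𝓝 t)
        (𝓝[Icc 0 (|t| + 1 + (|t| + 1))] (|t| + 1 + t)) := by
      refine tendsto_nhdsWithin_iff.2 ⟨(continuous_const.add continuous_id).tendsto t, ?_⟩
      filter_upwards [Ioo_mem_nhds ht.1 ht.2] with s hs1
      exact ⟨by linarith [hs1.1], by linarith [hs1.2]⟩
    refine (hc.comp h2).congr' ?_
    filter_upwards [Ioo_mem_nhds ht.1 ht.2] with s hs1
    rw [Function.comp_apply, hs s (Ioo_subset_Icc_self hs1), hs t (Ioo_subset_Icc_self ht)]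
  · obtain ⟨W, hW, hs⟩ := key (|t| + 1) (by positivity)
    have ht : t ∈ Ioo (-(|t| + 1)) (|t| + 1) :=
      ⟨by linarith [neg_abs_le t], by linarith [le_abs_self t]⟩
    obtain ⟨z, hz, he⟩ := hW.eqn (|t| + 1 + t) ⟨by linarith [ht.1], by linarith [ht.2]⟩ n
    have h2 : HasDerivAt (fun s => W s n) z (|t| + 1 + t) :=
      hz.hasDerivAt (Icc_mem_nhds (by linarith [ht.1]) (by linarith [ht.2]))
    have h3 : HasDerivAt (fun s => W (|t| + 1 + s) n) z t := h2.comp_const_add (|t| + 1) t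
    refine ⟨z, h3.congr_of_eventuallyEq ?_, ?_⟩
    · filter_upwards [Ioo_mem_nhds ht.1 ht.2] with s hs1
      rw [hs s (Ioo_subset_Icc_self hs1)]
    · rw [hs t (Ioo_subset_Icc_self ht)]
      exact he

theorem exists_global (hk : d < 2 * k) {m : ℕ} {a : Lat d → ℂ}
    (h : ∀ T, 0 ≤ T → ∃ u, IsSolution d (2 * m + 1) k T u ∧ u 0 = a)
    (h' : ∀ T, 0 ≤ T → ∃ u, IsSolution d (2 * m + 1) k T u ∧ u 0 = fun n => conj (a (-n))) :
    ∃ u, IsGlobalSolution d (2 * m + 1) k u ∧ u 0 = a := by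
  obtain ⟨u, hu, h0⟩ := exists_forward hk h
  obtain ⟨v, hv, h1⟩ := exists_forward hk h'
  refine ⟨_, global_of hk hu hv (by rw [h1, h0]), ?_⟩
  simp only [le_refl, if_true, h0]

end Vale.Agent.P139.R3.H36
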