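import Vale.Agent.P139.A.Defs

/-! # P139: mass and energy of a function on the torus, from its Fourier coefficients -/

namespace Vale.Agent.P139.R3.H36

open Vale.Agent.P139.A

/-- The mass `∫ |v|²`, divided by `(2π)^d`. -/
noncomputable def massOf {d : ℕ} (a : (Fin d → ℤ) → ℂ) : ℝ := ∑' n, ‖a n‖ ^ 2

/-- The energy `∫ (|∇v|²/2 + |v|^{p+1}/(p+1))`, divided by `(2π)^d`. -/
noncomputable def energyOf {d : ℕ} (p : ℕ) (a : (Fin d → ℤ) → ℂ) : ℝ :=
  (∑' n, sqNorm n * ‖a n‖ ^ 2) / 2 +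
    (fourierCoef (fun x => (‖series a x‖ : ℂ) ^ (p + 1)) 0).re / (p + 1)

end Vale.Agent.P139.R3.H36
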