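import Vale.Agent.P139.R3.H36.Local
import Vale.Agent.P139.R3.H966.Cons
import Vale.Agent.P139.R3.H861.Cont
import Vale.Agent.P139.R3.H156.SmallBall

/-! # P139: localisation of the dichotomy by mass and energy -/

open Set Metric Filter Topology MeasureTheory ProbabilityTheory
open scoped NNReal ENNReal ComplexConjugate

namespace Vale.Agent.P139.R3.H36

open Vale.Agent.P139.A Vale.Agent.P139.H203 HS

variable {d k : ℕ}

/-- Mass and energy. -/
noncomputable def me (p : ℕ) (a : Lat d → ℂ) : ℝ × ℝ := (massOf a, energyOf p a)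

/-- Mass and energy on `HS d k`. -/
noncomputable def qH (m : ℕ) (x : HS d k) : ℝ × ℝ := me (2 * m + 1) (co x)

theorem continuous_qH (hk : d < 2 * k) (hk1 : 1 ≤ k) (m : ℕ) :
    Continuous (qH m : HS d k → ℝ × ℝ) :=
  (H861.continuous_mass (d := d) (k := k)).prodMk (H861.continuous_energy hk hk1 m)

theorem me_cj (p : ℕ) (a : Lat d → ℂ) : me p (fun n => conj (a (-n))) = me p a := by
  unfold me
  rw [H966.mass_cj, H966.energy_cj]

theorem qH_cj (m : ℕ) (x : HS d k) : qH m (cj x) = qH m x := by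
  unfold qH
  rw [funext (co_cj x), me_cj]

theorem qH_Φ (hk : d < 2 * k) (hk2 : 2 ≤ k) {m : ℕ} (T : ℝ) (hT : 0 ≤ T) (x : HS d k)
    (hx : x ∈ D m T) : qH m (Φ m T x) = qH m x := by
  obtain ⟨u, hu, h0⟩ := (mem_D_iff hk hT x).1 hx
  have h1 := H966.cons hk hk2 hu T ⟨hT, le_rfl⟩
  unfold qH me
  rw [Φ_eq_of hk hT hu h0, ← h0, h1.1, h1.2]

theorem qH_toH (m : ℕ) {a : Lat d → ℂ} (ha : MemSobolev k a) :
    qH m (toH k a) = me (2 * m + 1) a := by
  unfold qH
  rw [funext (co_toH ha)]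

theorem Generic.mono {Q R : (Lat d → ℂ) → Prop} (h : Generic k Q)
    (hQR : ∀ a, MemSobolev k a → Q a → R a) : Generic k R := by
  obtain ⟨G, hG, hQ⟩ := h
  exact ⟨G, hG, fun a ha => hQR a ((hG 0).1 a (ha 0)).1 (hQ a ha)⟩

/-- Uniform lower bound for the probability that the datum lies in a given open set. -/
theorem charge_unif {β : ℝ} (hβ : (k : ℝ) + d / 2 < β) {G : Set (Lat d → ℂ)}
    (hG : IsOpenH k G) (hne : G.Nonempty) : ∃ K : ℝ, 1 < K ∧
      ∀ (Ω : Type) [MeasurableSpace Ω] (P : Measure Ω) [IsProbabilityMeasure P]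
        (g : (Fin d → ℤ) → Ω → ℂ), (∀ n, Measurable (g n)) → iIndepFun g P →
        (∀ n, P.map (g n) = stdComplexGaussian) → ∀ α : ℝ, β ≤ α →
        ENNReal.ofReal (Real.exp (-(K ^ α))) ≤ P {ω | datum g α ω ∈ G} := by
  obtain ⟨a, ha⟩ := hne
  obtain ⟨hm', ε, hε, h⟩ := hG a ha
  obtain ⟨K, hK, hb⟩ := H156.ball_lower_unif hβ hm' hε
  exact ⟨K, hK, fun Ω _ P _ g hm hind hg α hα => (hb P g hm hind hg α hα).trans
    (measure_mono fun ω hω => h _ hω.1 hω.2)⟩

/-- The closed set of the values of mass and energy near which generic global existence fails. -/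
noncomputable def Zk (m d k : ℕ) : Set (ℝ × ℝ) := Zs m (qH m : HS d k → ℝ × ℝ)

theorem isClosed_Zk (m d k : ℕ) : IsClosed (Zk m d k) := isClosed_Zs

theorem generic_off (hk : d < 2 * k) (hk1 : 1 ≤ k) (m : ℕ) :
    Generic k (fun a : (Fin d → ℤ) → ℂ => me (2 * m + 1) a ∉ Zk m d k →
      ∃ u, IsGlobalSolution d (2 * m + 1) k u ∧ u 0 = a) := by
  have h := generic_local (m := m) hk (continuous_qH hk hk1 m) (qH_cj m)
    (isClosed_Zk m d k).isOpen_compl (fun T hT => compl_Zs_subset hT)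
  refine h.mono fun a ha h1 h2 => h1 ?_
  rw [qH_toH m ha]
  exact h2

theorem short_near (hk : d < 2 * k) (hk2 : 2 ≤ k) {m : ℕ} {O : Set (ℝ × ℝ)} (hO : IsOpen O)
    (hne : (O ∩ Zk m d k).Nonempty) {δ : ℝ} (hδ : 0 < δ) :
    ∃ G : Set ((Fin d → ℤ) → ℂ), IsOpenH k G ∧ G.Nonempty ∧
      ∀ a ∈ G, me (2 * m + 1) a ∈ O ∧ lifespan d (2 * m + 1) k a ≤ ENNReal.ofReal δ := by
  have hc := continuous_qH (d := d) hk (by omega) m
  obtain ⟨G, hG, hGn, h⟩ := open_short_local (m := m) hk hc hO hδ.le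
    (not_subset_of_meets hk hc (qH_cj m) (qH_Φ hk hk2) hO hne hδ)
  refine ⟨G, hG, hGn, fun a ha => ⟨?_, (h a ha).2⟩⟩
  rw [← qH_toH m (hG a ha).1]
  exact (h a ha).1

theorem zero_of_generic (hk : d < 2 * k) (hk2 : 2 ≤ k) {m : ℕ} {O : Set (ℝ × ℝ)} (hO : IsOpen O)
    (h : Generic k (fun a : (Fin d → ℤ) → ℂ => me (2 * m + 1) a ∈ O →
      ∃ u, IsGlobalSolution d (2 * m + 1) k u ∧ u 0 = a)) : O ∩ Zk m d k = ∅ := by
  by_contra hne
  obtain ⟨G, hG, hGn, hs⟩ := short_near hk hk2 hO (nonempty_iff_ne_empty.2 hne) one_pos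
  obtain ⟨a, haG, ha⟩ := h.exists_mem hG hGn
  have h1 := (hs a haG).2
  rw [lifespan_top (ha (hs a haG).1)] at h1
  exact absurd h1 (by simp)

theorem smooth_cj {l : ℕ} {x : HS d l} (h : Smooth (co x)) : Smooth (co (cj x)) := by
  rw [funext (co_cj x)]
  exact smooth_conj h

/-- Generic smooth data whose mass and energy avoid the closure of the union of the sets `Zk`. -/
theorem genericS_off (m d : ℕ) :
    GenericS (fun a : (Fin d → ℤ) → ℂ =>
      me (2 * m + 1) a ∉ closure (⋃ l ∈ {l : ℕ | d < 2 * l}, Zk m d l) →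
      ∃ u, u 0 = a ∧ ∀ l : ℕ, IsGlobalSolution d (2 * m + 1) l u) := by
  set O : Set (ℝ × ℝ) := (closure (⋃ l ∈ {l : ℕ | d < 2 * l}, Zk m d l))ᶜ with hOd
  have hO : IsOpen O := isClosed_closure.isOpen_compl
  have hsub : ∀ l, d < 2 * l → ∀ T, 0 ≤ T → (qH m : HS d l → ℝ × ℝ) ⁻¹' O ⊆ closure (D m T) := by
    intro l hl T hT x hx
    refine compl_Zs_subset (q := (qH m : HS d l → ℝ × ℝ)) hT ?_
    intro hc
    exact hx (subset_closure (mem_iUnion₂.2 ⟨l, hl, hc⟩))
  set k : ℕ := d + 1 with hkd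
  have hk : d < 2 * k := by omega
  set A : ℕ → Set (Lat d → ℂ) := fun j => {a | Smooth a ∧
    toH k a ∈ ((D m (j : ℝ) ∩ cj ⁻¹' D m (j : ℝ) : Set (HS d k)))} with hA
  set N' : Set (Lat d → ℂ) := {a | Smooth a ∧ ∃ (l : ℕ) (ε : ℝ), 0 < ε ∧ ∀ b, Smooth b →
    sobolevSq l (fun n => b n - a n) < ε → me (2 * m + 1) b ∉ O} with hN
  have hAo : ∀ j, IsOpenS (A j) := by
    intro j
    have h1 := isOpen_D (d := d) hk (m := m) (Nat.cast_nonneg j : (0 : ℝ) ≤ j)
    have h2 := isOpenH_img (h1.inter (h1.preimage continuous_cj))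
    rintro a ⟨ha, haG⟩
    obtain ⟨-, ε, hε, h3⟩ := h2 a ⟨ha k, haG⟩
    exact ⟨ha, k, ε, hε, fun b hb hab => ⟨hb, (h3 b (hb k) hab).2⟩⟩
  have hsq : ∀ (l : ℕ) {a b c : Lat d → ℂ}, MemSobolev l a → MemSobolev l b → MemSobolev l c →
      ∀ {ε : ℝ}, 0 < ε → sobolevSq l (fun n => b n - a n) < ε / 4 →
      sobolevSq l (fun n => c n - b n) < ε / 4 → sobolevSq l (fun n => c n - a n) < ε := by
    intro l a b c ha hb hc ε hε h1 h2
    rw [← norm_toH_sub ha hb] at h1
    rw [← norm_toH_sub hb hc] at h2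
    rw [← norm_toH_sub ha hc]
    have h3 : toH l c - toH l a = (toH l c - toH l b) + (toH l b - toH l a) := by abel
    have h4 := norm_add_le (toH l c - toH l b) (toH l b - toH l a)
    rw [← h3] at h4
    have h5 := norm_nonneg (toH l c - toH l a)
    nlinarith [sq_nonneg (‖toH l c - toH l b‖ - ‖toH l b - toH l a‖),
      norm_nonneg (toH l c - toH l b), norm_nonneg (toH l b - toH l a)]
  have hNo : IsOpenS N' := by
    rintro a ⟨ha, l, ε, hε, h⟩
    refine ⟨ha, l, ε / 4, by positivity, fun b hb hab => ⟨hb, l, ε / 4, by positivity,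
      fun c hc hcb => h c hc (hsq l (ha l) (hb l) (hc l) hε hab hcb)⟩⟩
  refine ⟨fun j => A j ∪ N', fun j => ⟨?_, ?_⟩, fun a ha hq => ?_⟩
  · rintro a (ha | ha)
    · obtain ⟨h1, l, ε, hε, h2⟩ := hAo j a ha
      exact ⟨h1, l, ε, hε, fun b hb hab => Or.inl (h2 b hb hab)⟩
    · obtain ⟨h1, l, ε, hε, h2⟩ := hNo a ha
      exact ⟨h1, l, ε, hε, fun b hb hab => Or.inr (h2 b hb hab)⟩
  · intro a ha l ε hε
    by_cases haN : a ∈ N'
    · exact ⟨a, Or.inr haN, ha, by simpa [sobolevSq] using hε⟩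
    have hkL : k ≤ max l k := le_max_right l k
    generalize hL : max l k = L at hkL
    have hlL : l ≤ L := hL ▸ le_max_left l k
    have hdL : d < 2 * L := by omega
    have hb0 : ∃ b, Smooth b ∧ sobolevSq L (fun n => b n - a n) < ε / 4 ∧
        me (2 * m + 1) b ∈ O := by
      by_contra hcon
      push Not at hcon
      exact haN ⟨ha, L, ε / 4, by positivity, hcon⟩
    obtain ⟨b, hb, hba, hbO⟩ := hb0
    have h1 := isOpen_D (d := d) hdL (m := m) (Nat.cast_nonneg j : (0 : ℝ) ≤ j)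
    have h3 : IsOpen (D m (j : ℝ) ∩ cj ⁻¹' D m (j : ℝ) : Set (HS d L)) :=
      h1.inter (h1.preimage continuous_cj)
    have hcq := continuous_qH (d := d) hdL (by omega) m
    have h4 := both_dense hdL hcq (qH_cj m) hO (Nat.cast_nonneg j)
      (hsub L hdL j (Nat.cast_nonneg j))
    have h5 : toH L b ∈ closure (D m (j : ℝ) ∩ cj ⁻¹' D m (j : ℝ) : Set (HS d L)) := by
      refine h4 ?_
      rw [mem_preimage, qH_toH m (hb L)]
      exact hbO
    obtain ⟨y, hyb, hyD⟩ := _root_.mem_closure_iff.1 h5 (ball (toH L b) (Real.sqrt (ε / 4)))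
      isOpen_ball (mem_ball_self (Real.sqrt_pos.2 (by positivity)))
    obtain ⟨x, ⟨hx, hxD⟩, hxS⟩ := dense_smooth.inter_open_nonempty
      (ball (toH L b) (Real.sqrt (ε / 4)) ∩ (D m (j : ℝ) ∩ cj ⁻¹' D m (j : ℝ)))
      (isOpen_ball.inter h3) ⟨y, hyb, hyD⟩
    have hxS' : Smooth (co x) := hxS
    refine ⟨co x, Or.inl ⟨hxS', ?_⟩, hxS', ?_⟩
    · have key : ∀ y : HS d L, Smooth (co y) → y ∈ D m (j : ℝ) → toH k (co y) ∈ D m (j : ℝ) := by
        intro y hy hyD
        obtain ⟨u, hu, h0⟩ := (mem_D_iff hdL (Nat.cast_nonneg j) y).1 hyD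
        refine (mem_D_iff hk (Nat.cast_nonneg j) _).2
          ⟨u, H156.isSolution_lower hkL hu, ?_⟩
        rw [h0, funext (co_toH (hy k))]
      refine ⟨key x hxS' hxD.1, ?_⟩
      have h6 : cj (toH k (co x)) = toH k (co (cj x)) := by
        ext n
        rw [co_cj, co_toH (hxS' k), co_toH (smooth_cj hxS' k), co_cj]
      rw [mem_preimage, h6]
      exact key (cj x) (smooth_cj hxS') hxD.2
    · rw [mem_ball, dist_eq_norm] at hx
      have h7 : sobolevSq L (fun n => co x n - b n) < ε / 4 := by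
        rw [← norm_toH_sub (hb L) (memS x), toH_co, ← Real.sq_sqrt (by positivity : 0 ≤ ε / 4)]
        exact pow_lt_pow_left₀ hx (norm_nonneg _) two_ne_zero
      exact (H156.sobolevSq_mono hlL (mem_sub (memS x) (ha L))).trans_lt
        (hsq L (ha L) (hb L) (memS x) hε hba h7)
  · have hm : Smooth a := by
      rcases ha 0 with h | h
      · exact h.1
      · exact h.1
    have haN : a ∉ N' := by
      rintro ⟨-, l, ε, hε, h⟩
      exact h a hm (by simpa [sobolevSq] using hε) hq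
    have key : ∀ T : ℝ, 0 ≤ T → toH k a ∈ D m T ∧ cj (toH k a) ∈ D m T := by
      intro T _
      obtain ⟨j, hj⟩ := exists_nat_ge T
      rcases ha j with h1 | h1
      · exact ⟨D_mono hj h1.2.1, D_mono hj h1.2.2⟩
      · exact absurd h1 haN
    refine global_smooth hk hm (fun T hT => ?_) (fun T hT => ?_)
    · obtain ⟨u, hu, h0⟩ := (mem_D_iff hk hT _).1 (key T hT).1
      exact ⟨u, hu, by rw [h0, funext (co_toH (hm k))]⟩
    · obtain ⟨u, hu, h0⟩ := (mem_D_iff hk hT _).1 (key T hT).2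
      refine ⟨u, hu, ?_⟩
      rw [h0]
      funext n
      rw [co_cj, co_toH (hm k)]

end Vale.Agent.P139.R3.H36
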