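import Vale.Agent.P139.R3.H36.Smooth
import Vale.Agent.P139.R3.H36.Laws

/-! # P139: localisation of the dichotomy by conserved quantities -/

open Set Metric Filter Topology MeasureTheory ProbabilityTheory
open scoped NNReal ENNReal ComplexConjugate

namespace Vale.Agent.P139.R3.H36

open Vale.Agent.P139.A Vale.Agent.P139.H203 HS

variable {d k : ℕ}

section Abstract

variable {Y : Type*} [TopologicalSpace Y] {q : HS d k → Y} {m : ℕ}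

omit [TopologicalSpace Y] in
theorem q_Ψ (hqj : ∀ x, q (cj x) = q x)
    (hqΦ : ∀ T, 0 ≤ T → ∀ x ∈ (D m T : Set (HS d k)), q (Φ m T x) = q x) {T : ℝ} (hT : 0 ≤ T)
    {x : HS d k} (hx : x ∈ D m T) : q (Ψ m T x) = q x := by
  rw [Ψ, hqj, hqΦ T hT x hx]

theorem local_step (hk : d < 2 * k) (hqc : Continuous q) (hqj : ∀ x, q (cj x) = q x)
    (hqΦ : ∀ T, 0 ≤ T → ∀ x ∈ (D m T : Set (HS d k)), q (Φ m T x) = q x) {O : Set Y}
    (hO : IsOpen O) {δ : ℝ} (hδ : 0 ≤ δ) (h : q ⁻¹' O ⊆ closure (D m δ)) {T : ℝ} (hT : 0 ≤ T)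
    (hT' : q ⁻¹' O ⊆ closure (D m T)) : q ⁻¹' O ⊆ closure (D m (δ + T)) := by
  intro x hxR
  rw [_root_.mem_closure_iff]
  intro U' hU' hxU'
  have hR : IsOpen (q ⁻¹' O) := hO.preimage hqc
  obtain ⟨x₁, ⟨hx₁U, hx₁R⟩, hx₁D⟩ := _root_.mem_closure_iff.1 (h hxR) (U' ∩ q ⁻¹' O) (hU'.inter hR)
    ⟨hxU', hxR⟩
  have hΨc : ContinuousOn (Ψ m δ : HS d k → HS d k) (D m δ) :=
    continuous_cj.comp_continuousOn (continuousOn_Φ hk hδ)
  have hW : IsOpen (D m δ ∩ Ψ m δ ⁻¹' (U' ∩ q ⁻¹' O) : Set (HS d k)) :=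
    hΨc.isOpen_inter_preimage (isOpen_D hk hδ) (hU'.inter hR)
  have hy₁ : Ψ m δ x₁ ∈ (D m δ ∩ Ψ m δ ⁻¹' (U' ∩ q ⁻¹' O) : Set (HS d k)) :=
    ⟨Ψ_mem hk hδ hx₁D, by rw [mem_preimage, Ψ_Ψ hk hδ hx₁D]; exact ⟨hx₁U, hx₁R⟩⟩
  have hy₁R : cj (Ψ m δ x₁) ∈ q ⁻¹' O := by
    rw [mem_preimage, hqj, q_Ψ hqj hqΦ hδ hx₁D]
    exact hx₁R
  obtain ⟨z, hzW, hzD⟩ := _root_.mem_closure_iff.1 (hT' hy₁R) (cj ⁻¹' _) (hW.preimage continuous_cj)
    (by rw [mem_preimage, cj_cj]; exact hy₁)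
  rw [mem_preimage] at hzW
  refine ⟨Ψ m δ (cj z), hzW.2.1, ?_⟩
  refine D_add hk hδ hT (Ψ_mem hk hδ hzW.1) ?_
  rw [Ψ_Ψ hk hδ hzW.1, cj_cj]
  exact hzD

theorem local_dense (hk : d < 2 * k) (hqc : Continuous q) (hqj : ∀ x, q (cj x) = q x)
    (hqΦ : ∀ T, 0 ≤ T → ∀ x ∈ (D m T : Set (HS d k)), q (Φ m T x) = q x) {O : Set Y}
    (hO : IsOpen O) {δ : ℝ} (hδ : 0 < δ) (h : q ⁻¹' O ⊆ closure (D m δ)) (T : ℝ) :
    q ⁻¹' O ⊆ closure (D m T) := by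
  have hall : ∀ n : ℕ, q ⁻¹' O ⊆ closure (D m (n * δ)) := by
    intro n
    induction n with
    | zero =>
      refine h.trans (closure_mono (D_mono ?_))
      simpa using hδ.le
    | succ n ih =>
      have h1 := local_step hk hqc hqj hqΦ hO hδ.le h (T := n * δ) (by positivity) ih
      have h2 : ((n + 1 : ℕ) : ℝ) * δ = δ + n * δ := by push_cast; ring
      rw [h2]
      exact h1
  obtain ⟨n, hn⟩ := exists_nat_ge (T / δ)
  exact (hall n).trans (closure_mono (D_mono ((div_le_iff₀ hδ).mp hn)))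

/-- The values of `q` near which long lifespans are not dense. -/
def Zs (m : ℕ) (q : HS d k → Y) : Set Y :=
  {z | ∀ O, IsOpen O → z ∈ O → ∃ T, 0 ≤ T ∧ ¬ (q ⁻¹' O ⊆ closure (D m T))}

theorem isClosed_Zs : IsClosed (Zs m q) := by
  rw [← isOpen_compl_iff, isOpen_iff_forall_mem_open]
  intro z hz
  rw [mem_compl_iff, Zs, mem_ofPred_eq] at hz
  push Not at hz
  obtain ⟨O, hO, hzO, h⟩ := hz
  refine ⟨O, fun z' hz' hc => ?_, hO, hzO⟩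
  obtain ⟨T, hT, hn⟩ := hc O hO hz'
  exact hn (h T hT)

theorem compl_Zs_subset {T : ℝ} (hT : 0 ≤ T) : q ⁻¹' (Zs m q)ᶜ ⊆ closure (D m T) := by
  intro x hx
  rw [mem_preimage, mem_compl_iff, Zs, mem_ofPred_eq] at hx
  push Not at hx
  obtain ⟨O, hO, hzO, h⟩ := hx
  exact h T hT hzO

theorem not_subset_of_meets (hk : d < 2 * k) (hqc : Continuous q) (hqj : ∀ x, q (cj x) = q x)
    (hqΦ : ∀ T, 0 ≤ T → ∀ x ∈ (D m T : Set (HS d k)), q (Φ m T x) = q x) {O : Set Y}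
    (hO : IsOpen O) (hne : (O ∩ Zs m q).Nonempty) {δ : ℝ} (hδ : 0 < δ) :
    ¬ (q ⁻¹' O ⊆ closure (D m δ)) := by
  intro h
  obtain ⟨z, hzO, hz⟩ := hne
  obtain ⟨T, hT, hn⟩ := hz O hO hzO
  exact hn (local_dense hk hqc hqj hqΦ hO hδ h T)

theorem both_dense (hk : d < 2 * k) (hqc : Continuous q) (hqj : ∀ x, q (cj x) = q x) {O : Set Y}
    (hO : IsOpen O) {T : ℝ} (hT : 0 ≤ T) (h : q ⁻¹' O ⊆ closure (D m T)) :
    q ⁻¹' O ⊆ closure (D m T ∩ cj ⁻¹' D m T) := by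
  intro x hxR
  rw [_root_.mem_closure_iff]
  intro U' hU' hxU'
  have hR : IsOpen (q ⁻¹' O) := hO.preimage hqc
  obtain ⟨x₁, ⟨hx₁U, hx₁R⟩, hx₁D⟩ := _root_.mem_closure_iff.1 (h hxR) (U' ∩ q ⁻¹' O) (hU'.inter hR)
    ⟨hxU', hxR⟩
  have hy₁R : cj x₁ ∈ q ⁻¹' O := by
    rw [mem_preimage, hqj]
    exact hx₁R
  obtain ⟨z, hzW, hzD⟩ := _root_.mem_closure_iff.1 (h hy₁R) (cj ⁻¹' (U' ∩ D m T))
    ((hU'.inter (isOpen_D hk hT)).preimage continuous_cj)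
    (by rw [mem_preimage, cj_cj]; exact ⟨hx₁U, hx₁D⟩)
  rw [mem_preimage] at hzW
  refine ⟨cj z, hzW.1, hzW.2, ?_⟩
  rw [mem_preimage, cj_cj]
  exact hzD

theorem generic_local (hk : d < 2 * k) (hqc : Continuous q) (hqj : ∀ x, q (cj x) = q x)
    {O : Set Y} (hO : IsOpen O) (h : ∀ T, 0 ≤ T → q ⁻¹' O ⊆ closure (D m T)) :
    Generic k (fun a : (Fin d → ℤ) → ℂ => q (toH k a) ∈ O →
      ∃ u, IsGlobalSolution d (2 * m + 1) k u ∧ u 0 = a) := by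
  have hA : ∀ j : ℕ, IsOpen ((D m (j : ℝ) ∩ cj ⁻¹' D m (j : ℝ)) : Set (HS d k)) := fun j => by
    have h1 := isOpen_D (d := d) hk (m := m) (Nat.cast_nonneg j : (0 : ℝ) ≤ j)
    exact h1.inter (h1.preimage continuous_cj)
  refine ⟨fun j : ℕ => img ((D m (j : ℝ) ∩ cj ⁻¹' D m (j : ℝ)) ∪ (closure (q ⁻¹' O))ᶜ :
    Set (HS d k)), fun j => ⟨?_, ?_⟩, fun a ha hq => ?_⟩
  · exact isOpenH_img ((hA j).union isClosed_closure.isOpen_compl)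
  · refine isDenseH_img ?_
    have h1 := both_dense hk hqc hqj hO (Nat.cast_nonneg j) (h j (Nat.cast_nonneg j))
    have h2 : closure (q ⁻¹' O) ⊆ closure (D m (j : ℝ) ∩ cj ⁻¹' D m (j : ℝ)) :=
      closure_minimal h1 isClosed_closure
    intro x
    by_cases hx : x ∈ closure (q ⁻¹' O)
    · exact closure_mono subset_union_left (h2 hx)
    · exact subset_closure (Or.inr hx)
  · have hm : MemSobolev k a := (ha 0).1
    have key : ∀ T : ℝ, 0 ≤ T → toH k a ∈ D m T ∧ cj (toH k a) ∈ D m T := by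
      intro T _
      obtain ⟨j, hj⟩ := exists_nat_ge T
      rcases (ha j).2 with h1 | h1
      · exact ⟨D_mono hj h1.1, D_mono hj h1.2⟩
      · exact absurd (subset_closure (show toH k a ∈ q ⁻¹' O from hq)) h1
    refine exists_global hk (fun T hT => ?_) (fun T hT => ?_)
    · obtain ⟨u, hu, h0⟩ := (mem_D_iff hk hT _).1 (key T hT).1
      exact ⟨u, hu, by rw [h0, funext (co_toH hm)]⟩
    · obtain ⟨u, hu, h0⟩ := (mem_D_iff hk hT _).1 (key T hT).2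
      refine ⟨u, hu, ?_⟩
      rw [h0]
      funext n
      rw [co_cj, co_toH hm]

theorem open_short_local (hk : d < 2 * k) (hqc : Continuous q) {O : Set Y} (hO : IsOpen O)
    {δ : ℝ} (hδ : 0 ≤ δ) (h : ¬ (q ⁻¹' O ⊆ closure (D m δ))) :
    ∃ G : Set ((Fin d → ℤ) → ℂ), IsOpenH k G ∧ G.Nonempty ∧
      ∀ a ∈ G, q (toH k a) ∈ O ∧ lifespan d (2 * m + 1) k a ≤ ENNReal.ofReal δ := by
  refine ⟨img (q ⁻¹' O ∩ (closure (D m δ))ᶜ),
    isOpenH_img ((hO.preimage hqc).inter isClosed_closure.isOpen_compl), ?_, fun a ha =>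
      ⟨ha.2.1, mem_D_of_lifespan hk ha.1 hδ fun hc => ha.2.2 (subset_closure hc)⟩⟩
  obtain ⟨x, hx, hxn⟩ := not_subset.1 h
  exact ⟨co x, memS x, by rw [toH_co]; exact ⟨hx, hxn⟩⟩

end Abstract

end Vale.Agent.P139.R3.H36
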