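import Vale.Agent.P139.R3.H36.Gen
import Vale.Agent.P139.R3.H156.FullSupp

/-! # P139: the generic dichotomy in official words -/

open Set Metric Filter Topology MeasureTheory ProbabilityTheory
open scoped NNReal ENNReal ComplexConjugate

namespace Vale.Agent.P139.R3.H36

open Vale.Agent.P139.A Vale.Agent.P139.H203 HS

variable {d k : ℕ}

/-- The image of a set of `HS d k` in the space of sequences. -/
def img (G : Set (HS d k)) : Set (Lat d → ℂ) := {a | MemSobolev k a ∧ toH k a ∈ G}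

theorem norm_toH_sub {a b : Lat d → ℂ} (ha : MemSobolev k a) (hb : MemSobolev k b) :
    ‖toH k b - toH k a‖ ^ 2 = sobolevSq k (fun n => b n - a n) := by
  rw [norm_sub_sq, funext (co_toH ha), funext (co_toH hb)]

theorem isOpenH_img {G : Set (HS d k)} (hG : IsOpen G) : IsOpenH k (img G) := by
  rintro a ⟨ha, haG⟩
  obtain ⟨ε, hε, h⟩ := Metric.isOpen_iff.1 hG _ haG
  refine ⟨ha, ε ^ 2, by positivity, fun b hb hab => ⟨hb, h ?_⟩⟩
  rw [mem_ball, dist_eq_norm]
  rw [← norm_toH_sub ha hb] at hab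
  exact lt_of_pow_lt_pow_left₀ 2 hε.le hab

theorem isDenseH_img {G : Set (HS d k)} (hG : Dense G) : IsDenseH k (img G) := by
  intro a ha ε hε
  obtain ⟨x, hx, hxG⟩ := Metric.dense_iff.1 hG (toH k a) (Real.sqrt ε) (Real.sqrt_pos.2 hε)
  refine ⟨co x, ⟨memS x, by rwa [toH_co]⟩, memS x, ?_⟩
  rw [mem_ball, dist_eq_norm] at hx
  rw [← norm_toH_sub ha (memS x), toH_co, ← Real.sq_sqrt hε.le]
  exact pow_lt_pow_left₀ hx (norm_nonneg _) two_ne_zero

theorem dense_cj {G : Set (HS d k)} (hG : Dense G) : Dense (cj ⁻¹' G) := by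
  have h1 : cj ⁻¹' G = cj '' G := by
    ext x
    constructor
    · intro hx
      exact ⟨cj x, hx, cj_cj x⟩
    · rintro ⟨y, hy, rfl⟩
      rw [mem_preimage, cj_cj]
      exact hy
  rw [h1]
  have h2 : Function.Surjective (cj : HS d k → HS d k) := fun x => ⟨cj x, cj_cj x⟩
  exact h2.denseRange.dense_image continuous_cj hG

theorem generic_of_dense (hk : d < 2 * k) {m : ℕ}
    (h : ∀ T, 0 ≤ T → Dense (D m T : Set (HS d k))) :
    Generic k (fun a : (Fin d → ℤ) → ℂ => ∃ u, IsGlobalSolution d (2 * m + 1) k u ∧ u 0 = a) := by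
  refine ⟨fun j : ℕ => img ((D m (j : ℝ) ∩ cj ⁻¹' D m (j : ℝ) : Set (HS d k))),
    fun j => ⟨?_, ?_⟩, fun a ha => ?_⟩
  · have h1 := isOpen_D (d := d) hk (m := m) (Nat.cast_nonneg j : (0 : ℝ) ≤ j)
    exact isOpenH_img (h1.inter (h1.preimage continuous_cj))
  · have h1 := isOpen_D (d := d) hk (m := m) (Nat.cast_nonneg j : (0 : ℝ) ≤ j)
    have h2 := h j (Nat.cast_nonneg j)
    exact isDenseH_img (h2.inter_of_isOpen_left (dense_cj h2) h1)
  · have hm : MemSobolev k a := (ha 0).1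
    have key : ∀ T : ℝ, 0 ≤ T → toH k a ∈ D m T ∧ cj (toH k a) ∈ D m T := by
      intro T _
      obtain ⟨j, hj⟩ := exists_nat_ge T
      exact ⟨D_mono hj (ha j).2.1, D_mono hj (ha j).2.2⟩
    refine exists_global hk (fun T hT => ?_) (fun T hT => ?_)
    · obtain ⟨u, hu, h0⟩ := (mem_D_iff hk hT _).1 (key T hT).1
      exact ⟨u, hu, by rw [h0, funext (co_toH hm)]⟩
    · obtain ⟨u, hu, h0⟩ := (mem_D_iff hk hT _).1 (key T hT).2
      refine ⟨u, hu, ?_⟩
      rw [h0]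
      funext n
      rw [co_cj, co_toH hm]

theorem mem_D_of_lifespan (hk : d < 2 * k) {m : ℕ} {a : Lat d → ℂ} (ha : MemSobolev k a)
    {δ : ℝ} (hδ : 0 ≤ δ) (h : toH k a ∉ D m δ) :
    lifespan d (2 * m + 1) k a ≤ ENNReal.ofReal δ := by
  unfold lifespan
  refine iSup₂_le fun T hT => ?_
  obtain ⟨u, hu, h0⟩ := hT
  by_contra hc
  rw [not_le] at hc
  have hc' : δ ≤ T := by
    rw [← ENNReal.ofReal_coe_nnreal] at hc
    exact ((ENNReal.ofReal_lt_ofReal_iff_of_nonneg hδ).1 hc).le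
  refine h ((mem_D_iff hk hδ _).2 ⟨u, IsSolution.restrict hc' hu, ?_⟩)
  rw [h0, funext (co_toH ha)]

theorem le_lifespan (hk : d < 2 * k) {m : ℕ} {a : Lat d → ℂ} {T : ℝ} (hT : 0 ≤ T)
    (h : a ∈ img (D m T : Set (HS d k))) : ENNReal.ofReal T ≤ lifespan d (2 * m + 1) k a := by
  obtain ⟨u, hu, h0⟩ := (mem_D_iff hk hT _).1 h.2
  rw [funext (co_toH h.1)] at h0
  unfold lifespan
  refine le_iSup₂_of_le T.toNNReal ⟨u, ?_, h0⟩ le_rfl
  rwa [Real.coe_toNNReal T hT]

theorem open_short (hk : d < 2 * k) {m : ℕ} {δ : ℝ} (hδ : 0 ≤ δ)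
    (h : ¬ Dense (D m δ : Set (HS d k))) :
    ∃ G : Set ((Fin d → ℤ) → ℂ), IsOpenH k G ∧ G.Nonempty ∧
      ∀ a ∈ G, lifespan d (2 * m + 1) k a ≤ ENNReal.ofReal δ := by
  refine ⟨img (closure (D m δ))ᶜ, isOpenH_img isClosed_closure.isOpen_compl, ?_, fun a ha => ?_⟩
  · rw [Dense, not_forall] at h
    obtain ⟨x, hx⟩ := h
    exact ⟨co x, memS x, by rwa [toH_co]⟩
  · exact mem_D_of_lifespan hk ha.1 hδ fun hc => ha.2 (subset_closure hc)

theorem N_zero (hk : d < 2 * k) (m : ℕ) : N m (0 : HS d k) = 0 := by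
  obtain ⟨C, -, h⟩ := N_norm_le (d := d) hk m
  have := h 0
  rw [norm_zero, zero_pow (by omega), mul_zero] at this
  exact norm_le_zero_iff.1 this

theorem zero_mem_D (hk : d < 2 * k) (m : ℕ) (T : ℝ) : (0 : HS d k) ∈ D m T := by
  refine ⟨fun _ => 0, fun t _ => ?_, rfl⟩
  have h1 : U t (0 : HS d k) = 0 := by
    ext n
    simp
  have h2 : U (-t) (0 : HS d k) = 0 := by
    ext n
    simp
  have h3 : fld m t (0 : HS d k) = 0 := by
    unfold fld
    rw [h1, N_zero hk, h2, smul_zero]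
  rw [h3]
  exact hasDerivWithinAt_const t _ _

section Prob

variable {Ω : Type*} [MeasurableSpace Ω] (P : Measure Ω) [IsProbabilityMeasure P]
  (g : Lat d → Ω → ℂ) (hm : ∀ n, Measurable (g n)) (hind : iIndepFun g P)
  (hg : ∀ n, P.map (g n) = stdComplexGaussian)

include hm hind hg in
theorem charge {α : ℝ} (hα : (k : ℝ) + d / 2 < α) {G : Set (Lat d → ℂ)} (hG : IsOpenH k G)
    (hne : G.Nonempty) : 0 < P {ω | datum g α ω ∈ G} := by
  obtain ⟨a, ha⟩ := hne
  obtain ⟨hm', ε, hε, h⟩ := hG a ha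
  refine (H156.full_support P g hm hind hg hα hm' hε).trans_le (measure_mono fun ω hω => ?_)
  exact h _ hω.1 hω.2

include hm hind hg in
theorem charge_short (hk : d < 2 * k) {m : ℕ} {δ : ℝ} (hδ : 0 ≤ δ)
    (h : ¬ Dense (D m δ : Set (HS d k))) {α : ℝ} (hα : (k : ℝ) + d / 2 < α) :
    0 < P {ω | lifespan d (2 * m + 1) k (datum g α ω) ≤ ENNReal.ofReal δ} := by
  obtain ⟨G, hG, hne, hs⟩ := open_short hk hδ h
  exact (charge P g hm hind hg hα hG hne).trans_le (measure_mono fun ω hω => hs _ hω)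

include hm hind hg in
theorem charge_long (hk : d < 2 * k) (m : ℕ) (T : ℝ) {α : ℝ} (hα : (k : ℝ) + d / 2 < α) :
    0 < P {ω | ENNReal.ofReal T ≤ lifespan d (2 * m + 1) k (datum g α ω)} := by
  rcases le_or_gt 0 T with hT | hT
  · refine (charge P g hm hind hg hα (isOpenH_img (isOpen_D hk (m := m) hT)) ?_).trans_le
      (measure_mono fun ω hω => le_lifespan hk hT hω)
    exact ⟨co 0, memS 0, by rw [toH_co]; exact zero_mem_D hk m T⟩
  · rw [ENNReal.ofReal_of_nonpos hT.le]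
    simp

end Prob

/-- A global solution is a solution on every `[0,T]`. -/
theorem IsGlobalSolution.isSolution {p : ℕ} {u : ℝ → Lat d → ℂ} (hu : IsGlobalSolution d p k u)
    (T : ℝ) : IsSolution d p k T u where
  mem t _ := hu.mem t
  cont t _ := (hu.cont t).mono_left nhdsWithin_le_nhds
  eqn t _ n := by
    obtain ⟨v, hv, he⟩ := hu.eqn t n
    exact ⟨v, hv.hasDerivWithinAt, he⟩

theorem lifespan_top {p : ℕ} {a : Lat d → ℂ} (h : ∃ u, IsGlobalSolution d p k u ∧ u 0 = a) :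
    lifespan d p k a = ⊤ := by
  obtain ⟨u, hu, h0⟩ := h
  refine ENNReal.eq_top_of_forall_nnreal_le fun T => ?_
  unfold lifespan
  exact le_iSup₂_of_le T ⟨u, hu.isSolution T, h0⟩ le_rfl

/-- Baire: a generic property holds somewhere in every nonempty open subset of `H^k`. -/
theorem Generic.exists_mem {Q : (Lat d → ℂ) → Prop} (hQ : Generic k Q) {O : Set (Lat d → ℂ)}
    (hO : IsOpenH k O) (hne : O.Nonempty) : ∃ a ∈ O, Q a := by
  obtain ⟨G, hG, h⟩ := hQ
  have hopen : ∀ {G : Set (Lat d → ℂ)}, IsOpenH k G → IsOpen {x : HS d k | co x ∈ G} := by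
    intro G hG
    rw [Metric.isOpen_iff]
    intro x hx
    obtain ⟨-, ε, hε, h⟩ := hG _ hx
    refine ⟨Real.sqrt ε, Real.sqrt_pos.2 hε, fun y hy => h _ (memS y) ?_⟩
    rw [mem_ball, dist_eq_norm] at hy
    rw [← norm_sub_sq, ← Real.sq_sqrt hε.le]
    exact pow_lt_pow_left₀ hy (norm_nonneg _) two_ne_zero
  have hdense : Dense (⋂ j, {x : HS d k | co x ∈ G j}) := by
    refine dense_iInter_of_isOpen (fun j => hopen (hG j).1) fun j => ?_
    rw [Metric.dense_iff]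
    intro x r hr
    obtain ⟨b, hb, hbm, hbx⟩ := (hG j).2 (co x) (memS x) (r ^ 2) (by positivity)
    refine ⟨toH k b, ?_, ?_⟩
    · rw [mem_ball, dist_eq_norm]
      refine lt_of_pow_lt_pow_left₀ 2 hr.le ?_
      rw [norm_sub_sq, funext (co_toH hbm)]
      exact hbx
    · show co (toH k b) ∈ G j
      rwa [funext (co_toH hbm)]
  obtain ⟨a, ha⟩ := hne
  have hne' : {x : HS d k | co x ∈ O}.Nonempty := by
    refine ⟨toH k a, ?_⟩
    show co (toH k a) ∈ O
    rwa [funext (co_toH (hO a ha).1)]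
  obtain ⟨x, hxO, hx⟩ := hdense.inter_open_nonempty _ (hopen hO) hne'
  exact ⟨co x, hxO, h _ fun j => mem_iInter.1 hx j⟩

end Vale.Agent.P139.R3.H36
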