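import Vale.Agent.P139.R3.H36.Loc2

/-! # P139: the sets `Zk` increase with `k` -/

open Set Metric Filter Topology MeasureTheory ProbabilityTheory
open scoped NNReal ENNReal ComplexConjugate

namespace Vale.Agent.P139.R3.H36

open Vale.Agent.P139.A Vale.Agent.P139.H203 HS

variable {d k l : ℕ}

/-- The inclusion of `H^l` in `H^k`. -/
noncomputable def incl (k : ℕ) (x : HS d l) : HS d k := toH k (co x)

theorem co_incl (hkl : k ≤ l) (x : HS d l) : co (incl k x) = co x :=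
  funext (co_toH (H156.memSobolev_mono hkl (memS x)))

theorem continuous_incl (hkl : k ≤ l) : Continuous (incl k : HS d l → HS d k) := by
  refine (LipschitzWith.of_dist_le_mul (K := 1) fun x y => ?_).continuous
  rw [dist_eq_norm, dist_eq_norm, NNReal.coe_one, one_mul]
  refine abs_le_of_sq_le_sq' ?_ (norm_nonneg _) |>.2
  rw [norm_sub_sq, norm_sub_sq, co_incl hkl, co_incl hkl]
  exact H156.sobolevSq_mono hkl (mem_sub (memS x) (memS y))

theorem incl_mem_D {m : ℕ} (hk : d < 2 * k) (hkl : k ≤ l) {T : ℝ} (hT : 0 ≤ T) {x : HS d l}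
    (hx : x ∈ D m T) : incl k x ∈ D m T := by
  obtain ⟨u, hu, h0⟩ := (mem_D_iff (by omega) hT x).1 hx
  exact (mem_D_iff hk hT _).2 ⟨u, H156.isSolution_lower hkl hu, by rw [h0, co_incl hkl]⟩

theorem Zk_mono {m : ℕ} (hk : d < 2 * k) (hk1 : 1 ≤ k) (hkl : k ≤ l) : Zk m d k ⊆ Zk m d l := by
  intro z hz
  by_contra hc
  rw [Zk, Zs, mem_ofPred_eq] at hc
  push Not at hc
  obtain ⟨O, hO, hzO, h⟩ := hc
  obtain ⟨T, hT, hn⟩ := hz O hO hzO
  refine hn fun x hx => ?_
  rw [_root_.mem_closure_iff]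
  intro U' hU' hxU'
  have hR : IsOpen ((qH m : HS d k → ℝ × ℝ) ⁻¹' O) := hO.preimage (continuous_qH hk hk1 m)
  obtain ⟨y, ⟨hyU, hyR⟩, hyS⟩ := dense_smooth.inter_open_nonempty
    (U' ∩ (qH m : HS d k → ℝ × ℝ) ⁻¹' O) (hU'.inter hR) ⟨x, hxU', hx⟩
  have hyS' : Smooth (co y) := hyS
  have h1 : incl k (toH l (co y)) = y := by
    ext n
    rw [co_incl hkl, co_toH (hyS' l)]
  have h2 : toH l (co y) ∈ closure (D m T : Set (HS d l)) := by
    refine h T hT ?_
    rw [mem_preimage, qH_toH m (hyS' l)]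
    exact hyR
  obtain ⟨w, hwU, hwD⟩ := _root_.mem_closure_iff.1 h2 (incl k ⁻¹' U')
    (hU'.preimage (continuous_incl hkl)) (by rw [mem_preimage, h1]; exact hyU)
  exact ⟨incl k w, hwU, incl_mem_D hk hkl hT hwD⟩

end Vale.Agent.P139.R3.H36
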