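import Vale.Agent.P139.R3.H36.Main
import Vale.Agent.P139.R3.H156.Persist

/-! # P139: the lifespan does not depend on `k`; generic smooth data -/

open Set Metric Filter Topology MeasureTheory ProbabilityTheory
open scoped NNReal ENNReal ComplexConjugate

namespace Vale.Agent.P139.R3.H36

open Vale.Agent.P139.A Vale.Agent.P139.H203 HS

variable {d k : ℕ}

theorem smooth_of_finite {a : Lat d → ℂ} {s : Finset (Lat d)} (h : ∀ n, n ∉ s → a n = 0) :
    Smooth a := by
  intro l
  refine summable_of_ne_finset_zero (s := s) fun n hn => ?_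
  rw [h n hn]
  simp

theorem dense_smooth : Dense {x : HS d k | Smooth (co x)} := by
  classical
  rw [Metric.dense_iff]
  intro x r hr
  have h1 := tendsto_tsum_compl_atTop_zero fun n => (1 + sqNorm n) ^ k * ‖co x n‖ ^ 2
  have h2 : ∀ᶠ s : Finset (Lat d) in atTop,
      ∑' n : { n // n ∉ s }, (1 + sqNorm (n : Lat d)) ^ k * ‖co x n‖ ^ 2 < r ^ 2 :=
    h1.eventually (gt_mem_nhds (by positivity))
  obtain ⟨s, hs⟩ := h2.exists
  set c : Lat d → ℂ := fun n => if n ∈ s then co x n else 0 with hc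
  have hcs : Smooth c := smooth_of_finite (s := s) fun n hn => by simp [hc, hn]
  refine ⟨toH k c, ?_, ?_⟩
  · rw [mem_ball, dist_eq_norm, norm_sub_rev]
    refine lt_of_pow_lt_pow_left₀ 2 hr.le ?_
    rw [norm_sub_sq, funext (co_toH (hcs k))]
    refine lt_of_eq_of_lt ?_ hs
    unfold sobolevSq
    rw [← tsum_subtype_eq_of_support_subset (s := {n | n ∉ s})]
    · refine tsum_congr fun n => ?_
      have hn : (n : Lat d) ∉ s := n.2
      simp [hc, hn]
    · intro n hn
      rw [mem_ofPred_eq]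
      intro hns
      apply hn
      simp [hc, hns]
  · show Smooth (co (toH k c))
    rw [funext (co_toH (hcs k))]
    exact hcs

theorem smooth_conj {a : Lat d → ℂ} (h : Smooth a) : Smooth fun n => conj (a (-n)) :=
  fun l => memSobolev_conj (h l)

/-- Persistence of regularity for whole-line solutions with smooth data. -/
theorem global_smooth (hk : d < 2 * k) {m : ℕ} {a : Lat d → ℂ} (ha : Smooth a)
    (h : ∀ T, 0 ≤ T → ∃ u, IsSolution d (2 * m + 1) k T u ∧ u 0 = a)
    (h' : ∀ T, 0 ≤ T → ∃ u, IsSolution d (2 * m + 1) k T u ∧ u 0 = fun n => conj (a (-n))) :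
    ∃ u, u 0 = a ∧ ∀ l : ℕ, IsGlobalSolution d (2 * m + 1) l u := by
  obtain ⟨u, hu, h0⟩ := exists_forward hk h
  obtain ⟨v, hv, h1⟩ := exists_forward hk h'
  have hreg : ∀ l : ℕ, ∀ {w : ℝ → Lat d → ℂ}, (∀ T, 0 ≤ T → IsSolution d (2 * m + 1) k T w) →
      Smooth (w 0) → ∀ T, 0 ≤ T → IsSolution d (2 * m + 1) l T w := by
    intro l w hw hw0 T hT
    have h2 := H156.persist hk (le_max_right l k) hT (hw T hT) (hw0 _)
    exact H156.isSolution_lower (le_max_left l k) h2
  refine ⟨fun t => if 0 ≤ t then u t else fun n => conj (v (-t) (-n)), ?_, fun l => ?_⟩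
  · simp only [le_refl, if_true, h0]
  · have hl : d < 2 * max l k := hk.trans_le (by have := le_max_right l k; omega)
    have hg := global_of hl (hreg _ hu (by rw [h0]; exact ha))
      (hreg _ hv (by rw [h1]; exact smooth_conj ha)) (by rw [h1, h0])
    refine ⟨fun t => H156.memSobolev_mono (le_max_left l k) (hg.mem t), fun t => ?_, hg.eqn⟩
    refine squeeze_zero (fun s => tsum_nonneg fun n => mul_nonneg (weight_pos l n).le
      (sq_nonneg _)) (fun s => ?_) (hg.cont t)
    exact H156.sobolevSq_mono (le_max_left l k) (mem_sub (hg.mem s) (hg.mem t))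

theorem genericS_of_dense {m : ℕ}
    (h : ∀ l, d < 2 * l → ∀ T, 0 ≤ T → Dense (D m T : Set (HS d l))) :
    GenericS (fun a : (Fin d → ℤ) → ℂ =>
      ∃ u, u 0 = a ∧ ∀ l : ℕ, IsGlobalSolution d (2 * m + 1) l u) := by
  set k : ℕ := d + 1 with hkd
  have hk : d < 2 * k := by omega
  refine ⟨fun j : ℕ => {a | Smooth a ∧
    toH k a ∈ ((D m (j : ℝ) ∩ cj ⁻¹' D m (j : ℝ) : Set (HS d k)))}, fun j => ⟨?_, ?_⟩,
    fun a ha => ?_⟩
  · have h1 := isOpen_D (d := d) hk (m := m) (Nat.cast_nonneg j : (0 : ℝ) ≤ j)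
    have h2 := isOpenH_img (h1.inter (h1.preimage continuous_cj))
    rintro a ⟨ha, haG⟩
    obtain ⟨-, ε, hε, h3⟩ := h2 a ⟨ha k, haG⟩
    exact ⟨ha, k, ε, hε, fun b hb hab => ⟨hb, (h3 b (hb k) hab).2⟩⟩
  · intro a ha l ε hε
    have hkL : k ≤ max l k := le_max_right l k
    generalize hL : max l k = L at hkL
    have hlL : l ≤ L := hL ▸ le_max_left l k
    have hdL : d < 2 * L := by omega
    have h1 := isOpen_D (d := d) hdL (m := m) (Nat.cast_nonneg j : (0 : ℝ) ≤ j)
    have h2 := h L hdL j (Nat.cast_nonneg j)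
    have h3 : IsOpen (D m (j : ℝ) ∩ cj ⁻¹' D m (j : ℝ) : Set (HS d L)) :=
      h1.inter (h1.preimage continuous_cj)
    have h4 : Dense (D m (j : ℝ) ∩ cj ⁻¹' D m (j : ℝ) : Set (HS d L)) :=
      h2.inter_of_isOpen_left (dense_cj h2) h1
    obtain ⟨x, hx, hxG⟩ := Metric.dense_iff.1 (dense_smooth.inter_of_isOpen_right h4 h3)
      (toH L a) (Real.sqrt ε) (Real.sqrt_pos.2 hε)
    refine ⟨co x, ⟨hxG.1, ?_⟩, hxG.1, ?_⟩
    · have key : ∀ y : HS d L, Smooth (co y) → y ∈ D m (j : ℝ) → toH k (co y) ∈ D m (j : ℝ) := by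
        intro y hy hyD
        obtain ⟨u, hu, h0⟩ := (mem_D_iff hdL (Nat.cast_nonneg j) y).1 hyD
        refine (mem_D_iff hk (Nat.cast_nonneg j) _).2
          ⟨u, H156.isSolution_lower hkL hu, ?_⟩
        rw [h0, funext (co_toH (hy k))]
      refine ⟨key x hxG.1 hxG.2.1, ?_⟩
      have h5 : cj (toH k (co x)) = toH k (co (cj x)) := by
        ext n
        have h6 : Smooth (co (cj x)) := by
          rw [funext (co_cj x)]
          exact smooth_conj hxG.1
        rw [co_cj, co_toH (hxG.1 k), co_toH (h6 k), co_cj]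
      rw [mem_preimage, h5]
      refine key (cj x) ?_ hxG.2.2
      rw [funext (co_cj x)]
      exact smooth_conj hxG.1
    · rw [mem_ball, dist_eq_norm] at hx
      refine (H156.sobolevSq_mono hlL (mem_sub (memS x) (ha L))).trans_lt ?_
      rw [← norm_toH_sub (ha L) (memS x), toH_co, ← Real.sq_sqrt hε.le]
      exact pow_lt_pow_left₀ hx (norm_nonneg _) two_ne_zero
  · have hm : Smooth a := (ha 0).1
    have key : ∀ T : ℝ, 0 ≤ T → toH k a ∈ D m T ∧ cj (toH k a) ∈ D m T := by
      intro T _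
      obtain ⟨j, hj⟩ := exists_nat_ge T
      exact ⟨D_mono hj (ha j).2.1, D_mono hj (ha j).2.2⟩
    refine global_smooth hk hm (fun T hT => ?_) (fun T hT => ?_)
    · obtain ⟨u, hu, h0⟩ := (mem_D_iff hk hT _).1 (key T hT).1
      exact ⟨u, hu, by rw [h0, funext (co_toH (hm k))]⟩
    · obtain ⟨u, hu, h0⟩ := (mem_D_iff hk hT _).1 (key T hT).2
      refine ⟨u, hu, ?_⟩
      rw [h0]
      funext n
      rw [co_cj, co_toH (hm k)]

end Vale.Agent.P139.R3.H36
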