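import Vale.Agent.P139.H203.Emb

/-! # P139: the space `H^k(T^d)`, `2k > d`, as a type; product estimate -/

open Set Metric Filter Topology MeasureTheory
open scoped NNReal ENNReal ComplexConjugate

namespace Vale.Agent.P139.R3.H36

open Vale.Agent.P139.A Vale.Agent.P139.H203

variable {d k : ℕ}

/-- The weight `(1+|n|²)^{k/2}`. -/
noncomputable def V (k : ℕ) (n : Lat d) : ℝ := Real.sqrt ((1 + sqNorm n) ^ k)

lemma V_pos (n : Lat d) : 0 < V k n := Real.sqrt_pos.2 (weight_pos k n)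

lemma V_ne (n : Lat d) : (V k n : ℂ) ≠ 0 := by exact_mod_cast (V_pos (k := k) n).ne'

lemma V_sq (n : Lat d) : V k n ^ 2 = (1 + sqNorm n) ^ k := Real.sq_sqrt (weight_pos k n).le

lemma one_le_weight (n : Lat d) : 1 ≤ (1 + sqNorm n) ^ k :=
  one_le_pow₀ (by linarith [sqNorm_nonneg n])

lemma sqNorm_neg' (n : Lat d) : sqNorm (-n) = sqNorm n := by simp [sqNorm]

lemma weight_add_le (k : ℕ) (m l : Lat d) :
    (1 + sqNorm (m + l)) ^ k ≤ 4 ^ k * ((1 + sqNorm m) ^ k + (1 + sqNorm l) ^ k) := by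
  have h1 : sqNorm (m + l) ≤ 2 * sqNorm m + 2 * sqNorm l := by
    unfold sqNorm
    rw [Finset.mul_sum, Finset.mul_sum, ← Finset.sum_add_distrib]
    refine Finset.sum_le_sum fun j _ => ?_
    simp only [Pi.add_apply, Int.cast_add]
    nlinarith [sq_nonneg ((m j : ℝ) - (l j : ℝ))]
  have hx := sqNorm_nonneg m
  have hy := sqNorm_nonneg l
  have hz := sqNorm_nonneg (m + l)
  rcases le_total (sqNorm m) (sqNorm l) with h | h
  · calc (1 + sqNorm (m + l)) ^ k ≤ (4 * (1 + sqNorm l)) ^ k :=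
          pow_le_pow_left₀ (by linarith) (by linarith) k
      _ = 4 ^ k * (0 + (1 + sqNorm l) ^ k) := by rw [mul_pow, zero_add]
      _ ≤ _ := by
          gcongr
          exact (weight_pos k m).le
  · calc (1 + sqNorm (m + l)) ^ k ≤ (4 * (1 + sqNorm m)) ^ k :=
          pow_le_pow_left₀ (by linarith) (by linarith) k
      _ = 4 ^ k * ((1 + sqNorm m) ^ k + 0) := by rw [mul_pow, add_zero]
      _ ≤ _ := by
          gcongr
          exact (weight_pos k l).le

/-- `H^k(T^d)` as a type synonym of `ℓ²`. -/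
def HS (d _k : ℕ) : Type := lp (fun _ : Lat d => ℂ) 2

namespace HS

noncomputable instance : NormedAddCommGroup (HS d k) :=
  inferInstanceAs (NormedAddCommGroup (lp (fun _ : Lat d => ℂ) 2))

noncomputable instance : NormedSpace ℂ (HS d k) :=
  inferInstanceAs (NormedSpace ℂ (lp (fun _ : Lat d => ℂ) 2))

instance : CompleteSpace (HS d k) :=
  inferInstanceAs (CompleteSpace (lp (fun _ : Lat d => ℂ) 2))

noncomputable instance : NormedSpace ℝ (HS d k) := NormedSpace.complexToReal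

/-- Fourier coefficients of an element. -/
noncomputable def co (a : HS d k) (n : Lat d) : ℂ :=
  (show lp (fun _ : Lat d => ℂ) 2 from a) n / V k n

lemma norm_apply_sq (a : HS d k) (n : Lat d) :
    ‖(show lp (fun _ : Lat d => ℂ) 2 from a) n‖ ^ 2 = (1 + sqNorm n) ^ k * ‖co a n‖ ^ 2 := by
  unfold co
  rw [norm_div, Complex.norm_real, Real.norm_of_nonneg (V_pos n).le, div_pow, V_sq,
    mul_div_cancel₀ _ (weight_pos k n).ne']

lemma memS (a : HS d k) : MemSobolev k (co a) := by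
  have := (lp.memℓp (show lp (fun _ : Lat d => ℂ) 2 from a)).summable (by norm_num)
  simp only [ENNReal.toReal_ofNat, Real.rpow_ofNat] at this
  exact this.congr fun n => norm_apply_sq a n

lemma norm_sq_eq (a : HS d k) : ‖a‖ ^ 2 = sobolevSq k (co a) := by
  have := lp.norm_rpow_eq_tsum (p := 2) (by norm_num) (show lp (fun _ : Lat d => ℂ) 2 from a)
  simp only [ENNReal.toReal_ofNat, Real.rpow_ofNat] at this
  exact this.trans (tsum_congr fun n => norm_apply_sq a n)

/-- Element with given coefficients. -/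
noncomputable def mk (c : Lat d → ℂ) (h : MemSobolev k c) : HS d k :=
  (⟨fun n => V k n * c n, by
    show Memℓp _ _
    rw [memℓp_gen_iff (by norm_num)]
    simp only [ENNReal.toReal_ofNat, Real.rpow_ofNat]
    refine h.congr fun n => ?_
    rw [norm_mul, Complex.norm_real, Real.norm_of_nonneg (V_pos n).le, mul_pow, V_sq]⟩ :
      lp (fun _ : Lat d => ℂ) 2)

@[simp] lemma co_mk (c : Lat d → ℂ) (h : MemSobolev k c) (n : Lat d) :
    co (mk c h) n = c n := by
  show (V k n * c n : ℂ) / V k n = c n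
  rw [mul_div_cancel_left₀ _ (V_ne n)]

@[ext] lemma ext {a b : HS d k} (h : ∀ n, co a n = co b n) : a = b := by
  apply lp.ext
  funext n
  have := h n
  unfold co at this
  rw [div_left_inj' (V_ne n)] at this
  exact this

@[simp] lemma co_add (a b : HS d k) (n : Lat d) : co (a + b) n = co a n + co b n := by
  unfold co
  rw [← add_div]
  rfl

@[simp] lemma co_smul (c : ℂ) (a : HS d k) (n : Lat d) : co (c • a) n = c * co a n := by
  unfold co
  rw [← mul_div_assoc]
  rfl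

@[simp] lemma co_zero (n : Lat d) : co (0 : HS d k) n = 0 := by
  unfold co
  exact zero_div _

@[simp] lemma co_neg (a : HS d k) (n : Lat d) : co (-a) n = - co a n := by
  unfold co
  rw [← neg_div]
  rfl

@[simp] lemma co_sub (a b : HS d k) (n : Lat d) : co (a - b) n = co a n - co b n := by
  rw [sub_eq_add_neg, co_add, co_neg, sub_eq_add_neg]

lemma norm_co_le (a : HS d k) (n : Lat d) : ‖co a n‖ ≤ ‖a‖ := by
  refine abs_le_of_sq_le_sq' ?_ (norm_nonneg _) |>.2
  rw [norm_sq_eq]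
  have h1 := (memS a).le_tsum n fun m _ => mul_nonneg (weight_pos k m).le (sq_nonneg _)
  have h2 := one_le_weight (k := k) n
  have h3 := sq_nonneg ‖co a n‖
  have h4 : ‖co a n‖ ^ 2 ≤ (1 + sqNorm n) ^ k * ‖co a n‖ ^ 2 := by nlinarith
  exact h4.trans h1

/-- Coefficient as a continuous real-linear functional. -/
noncomputable def coR (n : Lat d) : HS d k →L[ℝ] ℂ :=
  (LinearMap.mkContinuous
    { toFun := fun a => co a n
      map_add' := fun a b => co_add a b n
      map_smul' := fun c a => co_smul c a n } 1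
    (fun a => by rw [one_mul]; exact norm_co_le a n) : HS d k →L[ℂ] ℂ).restrictScalars ℝ

@[simp] lemma coR_apply (n : Lat d) (a : HS d k) : coR n a = co a n := rfl

lemma norm_sub_sq (a b : HS d k) : ‖a - b‖ ^ 2 = sobolevSq k (fun n => co a n - co b n) := by
  rw [norm_sq_eq]
  congr 1
  funext n
  simp

open Classical in
/-- The element of `H^k` with coefficients `a`. -/
noncomputable def toH (k : ℕ) (a : Lat d → ℂ) : HS d k :=
  if h : MemSobolev k a then mk a h else 0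

lemma co_toH {a : Lat d → ℂ} (h : MemSobolev k a) (n : Lat d) : co (toH k a) n = a n := by
  unfold toH
  rw [dif_pos h, co_mk]

lemma toH_co (a : HS d k) : toH k (co a) = a := by
  ext n
  rw [co_toH (memS a)]

/-- The function in the Wiener algebra. -/
noncomputable def toW (a : HS d k) : WA d 0 := toWA (co a)

lemma coef_toW (hk : d < 2 * k) (a : HS d k) (n : Lat d) : WA.coef (toW a) n = co a n :=
  coef_toWA (summable_of_mem hk (memS a)) n

lemma norm_toW_le (hk : d < 2 * k) (a : HS d k) : ‖toW a‖ ≤ Real.sqrt (CS d k) * ‖a‖ := by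
  have h := norm_le_of_mem hk (memS a) (x := toW a) (coef_toW hk a)
  rwa [← norm_sq_eq, Real.sqrt_mul (CS_nonneg d k), Real.sqrt_sq (norm_nonneg _)] at h

/-! ### The product -/

/-- The weighted square mass of the convolution at `n`. -/
noncomputable def B (a b : HS d k) (n : Lat d) : ℝ :=
  ∑' m, ((1 + sqNorm m) ^ k * ‖co a m‖ ^ 2) * ((1 + sqNorm (n - m)) ^ k * ‖co b (n - m)‖ ^ 2)

lemma summable_sq (a : HS d k) : Summable fun n => (1 + sqNorm n) ^ k * ‖co a n‖ ^ 2 := memS a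

lemma sq_nn (a : HS d k) (n : Lat d) : 0 ≤ (1 + sqNorm n) ^ k * ‖co a n‖ ^ 2 :=
  mul_nonneg (weight_pos k n).le (sq_nonneg _)

lemma summable_sq_prod (a b : HS d k) : Summable fun q : Lat d × Lat d =>
    ((1 + sqNorm q.1) ^ k * ‖co a q.1‖ ^ 2) * ((1 + sqNorm q.2) ^ k * ‖co b q.2‖ ^ 2) :=
  Summable.mul_of_nonneg (f := fun n => (1 + sqNorm n) ^ k * ‖co a n‖ ^ 2)
    (g := fun n => (1 + sqNorm n) ^ k * ‖co b n‖ ^ 2) (summable_sq a) (summable_sq b)
    (fun n => sq_nn a n) (fun n => sq_nn b n)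

lemma summable_sq_shear (a b : HS d k) : Summable fun p : Lat d × Lat d =>
    ((1 + sqNorm p.2) ^ k * ‖co a p.2‖ ^ 2) *
      ((1 + sqNorm (p.1 - p.2)) ^ k * ‖co b (p.1 - p.2)‖ ^ 2) := by
  exact (WA.shear d).summable_iff.2 (summable_sq_prod a b)

lemma tsum_B (a b : HS d k) : ∑' n, B a b n = ‖a‖ ^ 2 * ‖b‖ ^ 2 := by
  have h2 : ‖a‖ ^ 2 * ‖b‖ ^ 2 = ∑' q : Lat d × Lat d,
      ((1 + sqNorm q.1) ^ k * ‖co a q.1‖ ^ 2) * ((1 + sqNorm q.2) ^ k * ‖co b q.2‖ ^ 2) := by
    rw [norm_sq_eq a, norm_sq_eq b]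
    exact Summable.tsum_mul_tsum (summable_sq a) (summable_sq b) (summable_sq_prod a b)
  rw [h2, ← (WA.shear d).tsum_eq
    (fun q : Lat d × Lat d => ((1 + sqNorm q.1) ^ k * ‖co a q.1‖ ^ 2) *
      ((1 + sqNorm q.2) ^ k * ‖co b q.2‖ ^ 2))]
  exact ((summable_sq_shear a b).tsum_prod).symm

lemma B_nonneg (a b : HS d k) (n : Lat d) : 0 ≤ B a b n :=
  tsum_nonneg fun m => mul_nonneg (mul_nonneg (weight_pos k m).le (sq_nonneg _))
    (mul_nonneg (weight_pos k _).le (sq_nonneg _))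

/-- The square of the algebra constant. -/
noncomputable def A2 (d k : ℕ) : ℝ := 2 * 4 ^ k * CS d k

lemma A2_nonneg (d k : ℕ) : 0 ≤ A2 d k := by
  unfold A2
  have := CS_nonneg d k
  positivity

lemma weight_sum_le (hk : d < 2 * k) (n : Lat d) (s : Finset (Lat d)) :
    (1 + sqNorm n) ^ k * ∑ m ∈ s, ((1 + sqNorm m) ^ k)⁻¹ * ((1 + sqNorm (n - m)) ^ k)⁻¹ ≤
      A2 d k := by
  have hw : ∀ m : Lat d, 0 < (1 + sqNorm m) ^ k := weight_pos k
  have hs := summable_inv_weight (d := d) hk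
  have h1 : ∀ m : Lat d, (1 + sqNorm n) ^ k *
      (((1 + sqNorm m) ^ k)⁻¹ * ((1 + sqNorm (n - m)) ^ k)⁻¹) ≤
      4 ^ k * (((1 + sqNorm m) ^ k)⁻¹ + ((1 + sqNorm (n - m)) ^ k)⁻¹) := by
    intro m
    have h2 := weight_add_le k m (n - m)
    rw [add_sub_cancel] at h2
    have hm := hw m
    have hl := hw (n - m)
    calc (1 + sqNorm n) ^ k * (((1 + sqNorm m) ^ k)⁻¹ * ((1 + sqNorm (n - m)) ^ k)⁻¹)
        ≤ (4 ^ k * ((1 + sqNorm m) ^ k + (1 + sqNorm (n - m)) ^ k)) *
          (((1 + sqNorm m) ^ k)⁻¹ * ((1 + sqNorm (n - m)) ^ k)⁻¹) := by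
          gcongr
      _ = _ := by
          field_simp
          ring
  rw [Finset.mul_sum]
  calc ∑ m ∈ s, (1 + sqNorm n) ^ k *
        (((1 + sqNorm m) ^ k)⁻¹ * ((1 + sqNorm (n - m)) ^ k)⁻¹)
      ≤ ∑ m ∈ s, 4 ^ k * (((1 + sqNorm m) ^ k)⁻¹ + ((1 + sqNorm (n - m)) ^ k)⁻¹) :=
        Finset.sum_le_sum fun m _ => h1 m
    _ = 4 ^ k * (∑ m ∈ s, ((1 + sqNorm m) ^ k)⁻¹ + ∑ m ∈ s, ((1 + sqNorm (n - m)) ^ k)⁻¹) := by
        rw [← Finset.mul_sum, Finset.sum_add_distrib]
    _ ≤ 4 ^ k * (CS d k + CS d k) := by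
        have h3 : ∑ m ∈ s, ((1 + sqNorm m) ^ k)⁻¹ ≤ CS d k :=
          hs.sum_le_tsum s fun m _ => (inv_pos.2 (hw m)).le
        have h4 : ∑ m ∈ s, ((1 + sqNorm (n - m)) ^ k)⁻¹ ≤ CS d k := by
          have hs' : Summable fun m : Lat d => ((1 + sqNorm (n - m)) ^ k)⁻¹ :=
            (Equiv.subLeft n).summable_iff.2 hs
          refine (hs'.sum_le_tsum s fun m _ => (inv_pos.2 (hw _)).le).trans (le_of_eq ?_)
          exact (Equiv.subLeft n).tsum_eq fun m : Lat d => ((1 + sqNorm m) ^ k)⁻¹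
        gcongr
    _ = A2 d k := by
        unfold A2
        ring

lemma conv_bound (hk : d < 2 * k) (a b : HS d k) (n : Lat d) :
    (1 + sqNorm n) ^ k * ‖WA.coef (toW a * toW b) n‖ ^ 2 ≤ A2 d k * B a b n := by
  have hw : ∀ m : Lat d, 0 < (1 + sqNorm m) ^ k := weight_pos k
  have hB := B_nonneg a b n
  have hA := A2_nonneg d k
  set c : ℝ := Real.sqrt (A2 d k * B a b n / (1 + sqNorm n) ^ k) with hc
  have hc2 : c ^ 2 = A2 d k * B a b n / (1 + sqNorm n) ^ k :=
    Real.sq_sqrt (div_nonneg (mul_nonneg hA hB) (hw n).le)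
  have h1 : ∀ s : Finset (Lat d), ∑ m ∈ s, ‖co a m * co b (n - m)‖ ≤ c := by
    intro s
    apply Real.le_sqrt_of_sq_le
    rw [le_div_iff₀ (hw n)]
    have h2 : (∑ m ∈ s, ‖co a m * co b (n - m)‖) ^ 2 ≤
        (∑ m ∈ s, ((1 + sqNorm m) ^ k)⁻¹ * ((1 + sqNorm (n - m)) ^ k)⁻¹) *
        ∑ m ∈ s, ((1 + sqNorm m) ^ k * ‖co a m‖ ^ 2) *
          ((1 + sqNorm (n - m)) ^ k * ‖co b (n - m)‖ ^ 2) := by
      refine Finset.sum_sq_le_sum_mul_sum_of_sq_le_mul s
        (fun m _ => mul_nonneg (inv_pos.2 (hw m)).le (inv_pos.2 (hw _)).le)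
        (fun m _ => mul_nonneg (mul_nonneg (hw m).le (sq_nonneg _))
          (mul_nonneg (hw _).le (sq_nonneg _))) (fun m _ => le_of_eq ?_)
      have h3 := (hw m).ne'
      have h4 := (hw (n - m)).ne'
      rw [norm_mul]
      field_simp
    have h5 : ∑ m ∈ s, ((1 + sqNorm m) ^ k * ‖co a m‖ ^ 2) *
          ((1 + sqNorm (n - m)) ^ k * ‖co b (n - m)‖ ^ 2) ≤ B a b n :=
      ((summable_sq_shear a b).prod_factor n).sum_le_tsum s fun m _ =>
        mul_nonneg (mul_nonneg (hw m).le (sq_nonneg _)) (mul_nonneg (hw _).le (sq_nonneg _))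
    have h6 := weight_sum_le hk n s
    have h7 : 0 ≤ ∑ m ∈ s, ((1 + sqNorm m) ^ k)⁻¹ * ((1 + sqNorm (n - m)) ^ k)⁻¹ :=
      Finset.sum_nonneg fun m _ => mul_nonneg (inv_pos.2 (hw m)).le (inv_pos.2 (hw _)).le
    calc (∑ m ∈ s, ‖co a m * co b (n - m)‖) ^ 2 * (1 + sqNorm n) ^ k
        ≤ ((∑ m ∈ s, ((1 + sqNorm m) ^ k)⁻¹ * ((1 + sqNorm (n - m)) ^ k)⁻¹) * B a b n) *
          (1 + sqNorm n) ^ k := by
          refine mul_le_mul_of_nonneg_right (h2.trans ?_) (hw n).le
          exact mul_le_mul_of_nonneg_left h5 h7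
      _ = ((1 + sqNorm n) ^ k *
          ∑ m ∈ s, ((1 + sqNorm m) ^ k)⁻¹ * ((1 + sqNorm (n - m)) ^ k)⁻¹) * B a b n := by ring
      _ ≤ A2 d k * B a b n := mul_le_mul_of_nonneg_right h6 hB
  have h8 : Summable fun m => ‖co a m * co b (n - m)‖ :=
    summable_of_sum_le (fun _ => norm_nonneg _) h1
  have h9 : ‖WA.coef (toW a * toW b) n‖ ≤ c := by
    rw [WA.coef_mul]
    simp only [coef_toW hk]
    exact (norm_tsum_le_tsum_norm h8).trans (h8.tsum_le_of_sum_le h1)
  calc (1 + sqNorm n) ^ k * ‖WA.coef (toW a * toW b) n‖ ^ 2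
      ≤ (1 + sqNorm n) ^ k * c ^ 2 := by
        have := hw n
        gcongr
    _ = A2 d k * B a b n := by
        rw [hc2, mul_div_cancel₀ _ (hw n).ne']

lemma mem_conv (hk : d < 2 * k) (a b : HS d k) :
    MemSobolev k (WA.coef (toW a * toW b)) := by
  refine Summable.of_nonneg_of_le (fun n => mul_nonneg (weight_pos k n).le (sq_nonneg _))
    (conv_bound hk a b) ?_
  exact ((summable_sq_shear a b).prod).mul_left _

/-- The product of two functions in `H^k`. -/
noncomputable def pr (a b : HS d k) : HS d k := toH k (WA.coef (toW a * toW b))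

lemma co_pr (hk : d < 2 * k) (a b : HS d k) (n : Lat d) :
    co (pr a b) n = WA.coef (toW a * toW b) n := co_toH (mem_conv hk a b) n

lemma toW_pr (hk : d < 2 * k) (a b : HS d k) : toW (pr a b) = toW a * toW b := by
  ext n
  rw [coef_toW hk, co_pr hk]

lemma toW_inj (hk : d < 2 * k) {a b : HS d k} (h : toW a = toW b) : a = b := by
  ext n
  rw [← coef_toW hk, h, coef_toW hk]

lemma toW_sub (hk : d < 2 * k) (a b : HS d k) : toW (a - b) = toW a - toW b := by
  ext n
  rw [coef_toW hk, WA.coef_sub, coef_toW hk, coef_toW hk, co_sub]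

lemma norm_pr_le (hk : d < 2 * k) (a b : HS d k) :
    ‖pr a b‖ ≤ Real.sqrt (A2 d k) * ‖a‖ * ‖b‖ := by
  have hA := A2_nonneg d k
  refine abs_le_of_sq_le_sq' ?_ (by positivity) |>.2
  rw [mul_pow, mul_pow, Real.sq_sqrt hA, norm_sq_eq (pr a b)]
  unfold sobolevSq
  simp only [co_pr hk]
  rw [mul_assoc, ← tsum_B, ← tsum_mul_left]
  exact (mem_conv hk a b).tsum_le_tsum (conv_bound hk a b)
    (((summable_sq_shear a b).prod).mul_left _)

lemma pr_sub_left (hk : d < 2 * k) (a b c : HS d k) : pr (a - b) c = pr a c - pr b c := by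
  apply toW_inj hk
  rw [toW_sub hk, toW_pr hk, toW_pr hk, toW_pr hk, toW_sub hk, sub_mul]

lemma pr_sub_right (hk : d < 2 * k) (a b c : HS d k) : pr a (b - c) = pr a b - pr a c := by
  apply toW_inj hk
  rw [toW_sub hk, toW_pr hk, toW_pr hk, toW_pr hk, toW_sub hk, mul_sub]

/-! ### Conjugation -/

lemma memSobolev_conj {a : Lat d → ℂ} (h : MemSobolev k a) :
    MemSobolev k fun n => conj (a (-n)) := by
  have h1 := (Equiv.neg (Lat d)).summable_iff.2 h
  refine h1.congr fun n => ?_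
  simp [sqNorm_neg']

lemma sobolevSq_conj (a : Lat d → ℂ) :
    sobolevSq k (fun n => conj (a (-n))) = sobolevSq k a := by
  unfold sobolevSq
  rw [← (Equiv.neg (Lat d)).tsum_eq fun n => (1 + sqNorm n) ^ k * ‖a n‖ ^ 2]
  refine tsum_congr fun n => ?_
  simp [sqNorm_neg']

/-- Complex conjugation. -/
noncomputable def cj (a : HS d k) : HS d k := mk _ (memSobolev_conj (memS a))

@[simp] lemma co_cj (a : HS d k) (n : Lat d) : co (cj a) n = conj (co a (-n)) := co_mk _ _ n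

lemma norm_cj (a : HS d k) : ‖cj a‖ = ‖a‖ := by
  have h : ‖cj a‖ ^ 2 = ‖a‖ ^ 2 := by
    rw [norm_sq_eq, norm_sq_eq, ← sobolevSq_conj (co a)]
    congr 1
    funext n
    simp
  exact (sq_eq_sq₀ (norm_nonneg _) (norm_nonneg _)).1 h

lemma cj_sub (a b : HS d k) : cj (a - b) = cj a - cj b := by
  ext n
  simp

lemma cj_cj (a : HS d k) : cj (cj a) = a := by
  ext n
  simp

lemma continuous_cj : Continuous (cj : HS d k → HS d k) := by
  refine (LipschitzWith.of_dist_le_mul (K := 1) fun a b => ?_).continuous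
  rw [dist_eq_norm, dist_eq_norm, ← cj_sub, norm_cj]
  simp

lemma toW_cj (hk : d < 2 * k) (a : HS d k) : toW (cj a) = WA.conjL (toW a) := by
  ext n
  rw [coef_toW hk, WA.coef_conjL, coef_toW hk, co_cj]

/-! ### The nonlinearity -/

/-- The nonlinearity `|a|^{2m} a`. -/
noncomputable def N : ℕ → HS d k → HS d k
  | 0, a => a
  | m + 1, a => pr (pr a (cj a)) (N m a)

lemma toW_N (hk : d < 2 * k) (m : ℕ) (a : HS d k) : toW (N m a) = WA.F m (toW a) := by
  induction m with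
  | zero => simp [N, WA.F]
  | succ m ih =>
    rw [N, toW_pr hk, toW_pr hk, toW_cj hk, ih]
    unfold WA.F
    ring

lemma co_N (hk : d < 2 * k) (m : ℕ) (a : HS d k) (n : Lat d) :
    co (N m a) n = WA.coef (WA.F m (toW a)) n := by
  rw [← coef_toW hk, toW_N hk]

lemma N_norm_le (hk : d < 2 * k) (m : ℕ) : ∃ C : ℝ, 0 ≤ C ∧ ∀ a : HS d k,
    ‖N m a‖ ≤ C * ‖a‖ ^ (2 * m + 1) := by
  induction m with
  | zero => exact ⟨1, zero_le_one, fun a => by simp [N]⟩
  | succ m ih =>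
    obtain ⟨C, hC, h⟩ := ih
    have hA := Real.sqrt_nonneg (A2 d k)
    refine ⟨Real.sqrt (A2 d k) * Real.sqrt (A2 d k) * C, by positivity, fun a => ?_⟩
    rw [N]
    calc ‖pr (pr a (cj a)) (N m a)‖ ≤ Real.sqrt (A2 d k) * ‖pr a (cj a)‖ * ‖N m a‖ :=
          norm_pr_le hk _ _
      _ ≤ Real.sqrt (A2 d k) * (Real.sqrt (A2 d k) * ‖a‖ * ‖a‖) * (C * ‖a‖ ^ (2 * m + 1)) := by
          have h1 := norm_pr_le hk a (cj a)
          rw [norm_cj] at h1
          have h2 := h a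
          gcongr
      _ = _ := by ring

lemma N_lipschitz (hk : d < 2 * k) (m : ℕ) {r : ℝ} (hr : 0 ≤ r) :
    ∃ K : ℝ≥0, LipschitzOnWith K (N m : HS d k → HS d k) (closedBall 0 r) := by
  induction m with
  | zero =>
    refine ⟨1, LipschitzOnWith.of_dist_le_mul fun x _ y _ => ?_⟩
    simp [N]
  | succ m ih =>
    obtain ⟨K, hK⟩ := ih
    obtain ⟨C, hC, hN⟩ := N_norm_le (d := d) hk m
    set c := Real.sqrt (A2 d k) with hc
    have hc0 : 0 ≤ c := Real.sqrt_nonneg _
    refine ⟨⟨c * (2 * c * r) * (C * r ^ (2 * m + 1)) + c * (c * r * r) * K, by positivity⟩,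
      LipschitzOnWith.of_dist_le_mul fun x hx y hy => ?_⟩
    have hx' : ‖x‖ ≤ r := by simpa only [Metric.mem_closedBall, dist_zero_right] using hx
    have hy' : ‖y‖ ≤ r := by simpa only [Metric.mem_closedBall, dist_zero_right] using hy
    have h1 := hK.dist_le_mul x hx y hy
    rw [dist_eq_norm, dist_eq_norm] at h1 ⊢
    have e : N (m + 1) x - N (m + 1) y
        = pr (pr x (cj x) - pr y (cj y)) (N m x) + pr (pr y (cj y)) (N m x - N m y) := by
      rw [N, N, pr_sub_left hk, pr_sub_right hk]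
      abel
    have e2 : pr x (cj x) - pr y (cj y) = pr x (cj (x - y)) + pr (x - y) (cj y) := by
      rw [cj_sub, pr_sub_left hk, pr_sub_right hk]
      abel
    have h2 : ‖pr x (cj x) - pr y (cj y)‖ ≤ 2 * c * r * ‖x - y‖ := by
      rw [e2]
      calc _ ≤ ‖pr x (cj (x - y))‖ + ‖pr (x - y) (cj y)‖ := norm_add_le _ _
        _ ≤ c * ‖x‖ * ‖x - y‖ + c * ‖x - y‖ * ‖y‖ := by
            refine add_le_add ((norm_pr_le hk _ _).trans ?_) ((norm_pr_le hk _ _).trans ?_)
            · rw [norm_cj]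
            · rw [norm_cj]
        _ ≤ c * r * ‖x - y‖ + c * ‖x - y‖ * r := by gcongr
        _ = _ := by ring
    have h3 : ‖N m x‖ ≤ C * r ^ (2 * m + 1) := (hN x).trans (by gcongr)
    have h4 : ‖pr y (cj y)‖ ≤ c * r * r := by
      refine (norm_pr_le hk _ _).trans ?_
      rw [norm_cj]
      gcongr
    rw [e]
    calc _ ≤ ‖pr (pr x (cj x) - pr y (cj y)) (N m x)‖ + ‖pr (pr y (cj y)) (N m x - N m y)‖ :=
          norm_add_le _ _
      _ ≤ c * ‖pr x (cj x) - pr y (cj y)‖ * ‖N m x‖ + c * ‖pr y (cj y)‖ * ‖N m x - N m y‖ :=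
          add_le_add (norm_pr_le hk _ _) (norm_pr_le hk _ _)
      _ ≤ c * (2 * c * r * ‖x - y‖) * (C * r ^ (2 * m + 1)) +
          c * (c * r * r) * (K * ‖x - y‖) := by gcongr
      _ = (c * (2 * c * r) * (C * r ^ (2 * m + 1)) + c * (c * r * r) * K) * ‖x - y‖ := by ring
      _ = _ := rfl

lemma continuous_N (hk : d < 2 * k) (m : ℕ) : Continuous (N m : HS d k → HS d k) := by
  refine continuous_iff_continuousAt.2 fun a => ?_
  obtain ⟨K, hK⟩ := N_lipschitz (d := d) hk m (r := ‖a‖ + 1) (by positivity)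
  refine hK.continuousOn.continuousAt ?_
  refine mem_of_superset (ball_mem_nhds a one_pos) fun b hb => ?_
  rw [mem_closedBall, dist_zero_right]
  rw [mem_ball, dist_eq_norm] at hb
  have h2 : b = (b - a) + a := by abel
  rw [h2]
  exact (norm_add_le _ _).trans (by linarith)

end HS

end Vale.Agent.P139.R3.H36
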